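import Vale.Agent.P069.Space

/-! P069: the norm of `XX` is asymptotically midpoint uniformly convex. -/

namespace Vale.Agent.P069

open Finset Filter Topology

noncomputable section

open Classical

lemma XX_mid {A : Finset (List ℕ)} (h0 : [] ∈ A)
    (hAd : ∀ s t : List ℕ, s <+: t → t ∈ A → s ∈ A) (I : Finset ℕ) (x y : XX)
    (hxI : ∀ k, k ∉ I → x k = 0) (hxA : ∀ k t, t ∉ A → toH k (x k) t = 0)
    (hy : ∀ k ∈ I, ∀ t ∈ A, toH k (y k) t = 0) :
    2 * ‖x‖ ^ 2 + 2 / 9 * ‖y‖ ^ 2 ≤ ‖x + y‖ ^ 2 + ‖x - y‖ ^ 2 := by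
  rw [XX_normsq x, XX_normsq y, XX_normsq (x + y), XX_normsq (x - y), ← tsum_mul_left,
    ← tsum_mul_left, ← ((XX_summable x).mul_left 2).tsum_add ((XX_summable y).mul_left (2 / 9)),
    ← (XX_summable (x + y)).tsum_add (XX_summable (x - y))]
  refine Summable.tsum_le_tsum (fun k => ?_)
    (((XX_summable x).mul_left 2).add ((XX_summable y).mul_left (2 / 9)))
    ((XX_summable (x + y)).add (XX_summable (x - y)))
  rw [lp.coeFn_add, lp.coeFn_sub, Pi.add_apply, Pi.sub_apply]
  by_cases hk : k ∈ I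
  · rw [EE_norm, EE_norm, EE_norm, EE_norm, map_add, map_sub]
    exact K_mid k h0 hAd _ _ (fun t ht => hxA k t ht) (fun t ht => hy k hk t ht)
  · rw [hxI k hk, zero_add, zero_sub, norm_neg, norm_zero]
    have := sq_nonneg ‖y k‖
    linarith

/-- prefix closure of a finite set -/
def pcl (B : Finset (List ℕ)) : Finset (List ℕ) :=
  insert [] (B.biUnion fun t => t.inits.toFinset)

lemma pcl_nil (B : Finset (List ℕ)) : [] ∈ pcl B := Finset.mem_insert_self _ _

lemma pcl_sub (B : Finset (List ℕ)) : B ⊆ pcl B := by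
  intro t ht
  rw [pcl, Finset.mem_insert, Finset.mem_biUnion]
  right
  refine ⟨t, ht, ?_⟩
  simp

lemma pcl_down (B : Finset (List ℕ)) (s t : List ℕ) (hst : s <+: t) (ht : t ∈ pcl B) :
    s ∈ pcl B := by
  rw [pcl, Finset.mem_insert, Finset.mem_biUnion] at ht ⊢
  rcases ht with rfl | ⟨u, hu, htu⟩
  · left; exact List.prefix_nil.mp hst
  · right
    refine ⟨u, hu, ?_⟩
    simp only [List.mem_toFinset, List.mem_inits] at htu ⊢
    exact hst.trans htu

/-- approximation of a vector of `HH` by its restrictions -/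
lemma HH_approx (w : HH) {δ : ℝ} (hδ : 0 < δ) :
    ∃ B : Finset (List ℕ), ∀ A, B ⊆ A → ‖w - QA A w‖ < δ := by
  have h1 := lp.hasSum_single (p := 2) (by norm_num) w
  have h2 := Metric.tendsto_atTop.mp h1 δ hδ
  obtain ⟨B, hB⟩ := h2
  refine ⟨B, fun A hA => ?_⟩
  have h3 := hB A hA
  rw [dist_eq_norm, ← norm_neg, neg_sub] at h3
  exact h3

/-- approximation of a vector of `XX` -/
lemma XX_approx (x : XX) {δ : ℝ} (hδ : 0 < δ) :
    ∃ (A : Finset (List ℕ)) (I : Finset ℕ) (x' : XX), [] ∈ A ∧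
      (∀ s t : List ℕ, s <+: t → t ∈ A → s ∈ A) ∧ (∀ k, k ∉ I → x' k = 0) ∧
      (∀ k t, t ∉ A → toH k (x' k) t = 0) ∧ ‖x - x'‖ < δ := by
  have h1 := lp.hasSum_single (p := 2) (by norm_num) x
  obtain ⟨I, hI⟩ := Metric.tendsto_atTop.mp h1 (δ / 2) (half_pos hδ)
  have h2 := hI I le_rfl
  rw [dist_eq_norm, ← norm_neg, neg_sub] at h2
  have hη : 0 < δ / (2 * (I.card + 1)) := by positivity
  choose B hB using fun k => HH_approx (toH k (x k)) hη
  set A := pcl (I.biUnion B) with hA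
  have hBA : ∀ k ∈ I, B k ⊆ A := fun k hk =>
    (Finset.subset_biUnion_of_mem B hk).trans (pcl_sub _)
  set x' : XX := ∑ k ∈ I, lp.single 2 k ((toH k).symm (QA A (toH k (x k)))) with hx'
  have hx'k : ∀ k, x' k = if k ∈ I then (toH k).symm (QA A (toH k (x k))) else 0 := by
    intro k
    rw [hx', lp.coeFn_sum, Finset.sum_apply]
    simp only [lp.single_apply]
    by_cases hk : k ∈ I
    · rw [if_pos hk, Finset.sum_eq_single k]
      · rw [Pi.single_eq_same]
      · intro j _ hj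
        rw [Pi.single_eq_of_ne (Ne.symm hj)]
      · intro h; exact absurd hk h
    · rw [if_neg hk]
      refine Finset.sum_eq_zero fun j hj => ?_
      rw [Pi.single_eq_of_ne]
      rintro rfl
      exact hk hj
  refine ⟨A, I, x', pcl_nil _, fun s t h1 h2 => pcl_down _ s t h1 h2, ?_, ?_, ?_⟩
  · intro k hk
    rw [hx'k, if_neg hk]
  · intro k t ht
    rw [hx'k]
    split_ifs with hk
    · rw [LinearEquiv.apply_symm_apply, QA_apply, if_neg ht]
    · rw [map_zero]; rfl
  · have h3 : x - x' = (x - ∑ k ∈ I, lp.single 2 k (x k)) +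
        ∑ k ∈ I, lp.single 2 k (x k - (toH k).symm (QA A (toH k (x k)))) := by
      rw [hx']
      simp only [lp.single_sub, Finset.sum_sub_distrib]
      abel
    have h4 : ‖∑ k ∈ I, (lp.single 2 k (x k - (toH k).symm (QA A (toH k (x k)))) : XX)‖ ≤
        I.card * (δ / (2 * (I.card + 1))) := by
      refine (norm_sum_le _ _).trans ?_
      rw [← nsmul_eq_mul]
      refine Finset.sum_le_card_nsmul _ _ _ fun k hk => ?_
      rw [lp.norm_single (by norm_num), EE_norm, map_sub, LinearEquiv.apply_symm_apply]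
      exact (K_le_norm k _).trans (hB k A (hBA k hk)).le
    have h5 : I.card * (δ / (2 * (I.card + 1))) ≤ δ / 2 := by
      rw [mul_div_assoc', div_le_div_iff₀ (by positivity) (by norm_num)]
      nlinarith
    rw [h3]
    refine (norm_add_le _ _).trans_lt ?_
    linarith

/-- the map of given coordinates -/
def LL (I : Finset ℕ) (A : Finset (List ℕ)) : XX →L[ℝ] (I × A → ℝ) :=
  ContinuousLinearMap.pi fun p : I × A => crd p.1 p.2

/-- the subspace of vectors vanishing on given coordinates -/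
def FF (I : Finset ℕ) (A : Finset (List ℕ)) : Submodule ℝ XX :=
  LinearMap.ker (LL I A).toLinearMap

lemma FF_mem {I : Finset ℕ} {A : Finset (List ℕ)} {y : XX} (h : y ∈ FF I A) :
    ∀ k ∈ I, ∀ t ∈ A, toH k (y k) t = 0 := by
  intro k hk t ht
  rw [FF, LinearMap.mem_ker] at h
  have := congrFun h (⟨k, hk⟩, ⟨t, ht⟩)
  exact this

lemma FF_cof (I : Finset ℕ) (A : Finset (List ℕ)) : FF I A ∈ cof XX := by
  constructor
  · exact ContinuousLinearMap.isClosed_ker (LL I A)
  · have : FiniteDimensional ℝ (LinearMap.range (LL I A).toLinearMap) := inferInstance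
    exact LinearEquiv.finiteDimensional (LL I A).toLinearMap.quotKerEquivRange.symm

theorem XX_amuc : IsAMUC (normSeminorm ℝ XX) := by
  intro t ht
  -- the modulus
  obtain ⟨δ, hδ, hδt, hδ8⟩ : ∃ δ : ℝ, 0 < δ ∧ (1 + δ) ^ 2 ≤ 1 + t ^ 2 / 9 ∧ δ / 8 ≤ 1 := by
    refine ⟨min 1 (t ^ 2 / 27), by positivity, ?_, ?_⟩
    · have h1 := min_le_left 1 (t ^ 2 / 27)
      have h2 := min_le_right 1 (t ^ 2 / 27)
      have h3 : 0 < min 1 (t ^ 2 / 27) := by positivity
      nlinarith
    · have h1 := min_le_left 1 (t ^ 2 / 27)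
      linarith
  have hkey : ((δ / 2 : ℝ) : EReal) ≤ amucModulus (normSeminorm ℝ XX) t := by
    unfold amucModulus
    refine le_iInf₂ fun x hx => ?_
    have hx1 : ‖x‖ = 1 := hx
    obtain ⟨A, I, x', h0, hAd, hxI, hxA, hxx⟩ := XX_approx x (δ := δ / 8) (by positivity)
    refine le_iSup₂_of_le (FF I A) (FF_cof I A) ?_
    refine le_iInf₂ fun y hy => ?_
    obtain ⟨hyF, hy1⟩ := hy
    have hy1' : ‖y‖ = 1 := hy1
    rw [EReal.coe_le_coe_iff]
    change δ / 2 ≤ max ‖x + t • y‖ ‖x - t • y‖ - 1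
    have hty : ∀ k ∈ I, ∀ s ∈ A, toH k ((t • y : XX) k) s = 0 := by
      intro k hk s hs
      rw [lp.coeFn_smul, Pi.smul_apply, map_smul, lp.coeFn_smul, Pi.smul_apply,
        FF_mem hyF k hk s hs, smul_zero]
    have h1 := XX_mid h0 hAd I x' (t • y) hxI hxA hty
    have h2 : ‖t • y‖ ^ 2 = t ^ 2 := by
      rw [norm_smul, hy1', mul_one, Real.norm_eq_abs, sq_abs]
    rw [h2] at h1
    have h3 : 1 - δ / 8 ≤ ‖x'‖ := by
      have := norm_sub_norm_le x x'
      rw [hx1] at this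
      linarith
    have h4 : ‖x' + t • y‖ ≤ ‖x + t • y‖ + δ / 8 := by
      have e1 : x' + t • y = (x + t • y) - (x - x') := by abel
      rw [e1]
      refine (norm_sub_le _ _).trans ?_
      linarith
    have h5 : ‖x' - t • y‖ ≤ ‖x - t • y‖ + δ / 8 := by
      have e1 : x' - t • y = (x - t • y) - (x - x') := by abel
      rw [e1]
      refine (norm_sub_le _ _).trans ?_
      linarith
    set m := max ‖x' + t • y‖ ‖x' - t • y‖ with hm
    have hm1 : m ≤ max ‖x + t • y‖ ‖x - t • y‖ + δ / 8 := by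
      rw [hm]
      refine max_le ?_ ?_
      · have := le_max_left ‖x + t • y‖ ‖x - t • y‖; linarith
      · have := le_max_right ‖x + t • y‖ ‖x - t • y‖; linarith
    have hm2 : 1 + δ / 2 + δ / 8 ≤ m := by
      by_contra hcon
      push Not at hcon
      have g1 : ‖x' + t • y‖ ^ 2 ≤ m ^ 2 :=
        pow_le_pow_left₀ (norm_nonneg _) (le_max_left _ _) 2
      have g2 : ‖x' - t • y‖ ^ 2 ≤ m ^ 2 :=
        pow_le_pow_left₀ (norm_nonneg _) (le_max_right _ _) 2
      have g3 : (1 - δ / 8) ^ 2 ≤ ‖x'‖ ^ 2 := pow_le_pow_left₀ (by linarith) h3 2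
      have g4 : m ^ 2 < (1 + δ / 2 + δ / 8) ^ 2 :=
        pow_lt_pow_left₀ hcon (le_max_of_le_left (norm_nonneg _)) (by norm_num)
      nlinarith
    linarith
  refine lt_of_lt_of_le ?_ hkey
  rw [EReal.coe_pos]
  positivity

end

end Vale.Agent.P069
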