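import Vale.Agent.P069.Tree

/-! P069: the norm `K` on `ℓ₂` of the tree. -/

namespace Vale.Agent.P069

open Finset

noncomputable section

open Classical

/-- `ℓ₂` on finite sequences -/
abbrev HH : Type := lp (fun _ : List ℕ => ℝ) 2

/-- coordinate vectors -/
def ev (t : List ℕ) : HH := lp.single 2 t (1 : ℝ)

/-- branch vectors -/
def bb (t : List ℕ) : HH := ∑ s ∈ t.inits.toFinset, lp.single 2 s (1 : ℝ)

lemma two_toReal_pos : 0 < (2 : ENNReal).toReal := by norm_num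

lemma normsq_tsum (x : HH) : ‖x‖ ^ 2 = ∑' s, (x s) ^ 2 := by
  have h1 := lp.norm_rpow_eq_tsum two_toReal_pos x
  simpa using h1

lemma ev_apply (t s : List ℕ) : ev t s = if s = t then 1 else 0 := by
  rw [ev, lp.single_apply, Pi.single_apply]

lemma bb_apply (t s : List ℕ) : bb t s = if s <+: t then 1 else 0 := by
  rw [bb, lp.coeFn_sum, Finset.sum_apply]
  have h1 : ∀ r ∈ t.inits.toFinset, (lp.single 2 r (1 : ℝ) : HH) s = if s = r then 1 else 0 :=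
    fun r _ => ev_apply r s
  rw [Finset.sum_congr rfl h1, Finset.sum_ite_eq]
  simp

lemma norm_bb_sq_le (t : List ℕ) : ‖bb t‖ ^ 2 ≤ t.length + 1 := by
  have h1 := lp.norm_sum_single (E := fun _ : List ℕ => ℝ) two_toReal_pos
    (fun _ => (1 : ℝ)) t.inits.toFinset
  have h2 : ‖bb t‖ ^ (2 : ℝ) ≤ t.length + 1 := by
    have h3 : (2 : ENNReal).toReal = 2 := by norm_num
    rw [h3] at h1
    rw [bb, h1]
    have h4 : t.inits.toFinset.card ≤ t.length + 1 := by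
      have := List.toFinset_card_le t.inits
      rwa [List.length_inits] at this
    have h5 : (t.inits.toFinset.card : ℝ) ≤ t.length + 1 := by exact_mod_cast h4
    simpa using h5
  simpa using h2

/-- the map from finite measures on the tree to `ℓ₂` -/
def aM : (List ℕ →₀ ℝ) →ₗ[ℝ] HH := Finsupp.linearCombination ℝ bb

/-- total variation -/
def l1 (μ : List ℕ →₀ ℝ) : ℝ := μ.sum fun _ r => |r|

lemma l1_eq {μ : List ℕ →₀ ℝ} {S : Finset (List ℕ)} (h : μ.support ⊆ S) :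
    l1 μ = ∑ t ∈ S, |μ t| := by
  rw [l1, Finsupp.sum_of_support_subset μ h _ (by simp)]

lemma l1_nonneg (μ : List ℕ →₀ ℝ) : 0 ≤ l1 μ :=
  Finset.sum_nonneg fun _ _ => abs_nonneg _

lemma l1_zero : l1 0 = 0 := by simp [l1]

lemma l1_add_le (μ ν : List ℕ →₀ ℝ) : l1 (μ + ν) ≤ l1 μ + l1 ν := by
  rw [l1_eq (S := μ.support ∪ ν.support) Finsupp.support_add,
    l1_eq (μ := μ) (S := μ.support ∪ ν.support) Finset.subset_union_left,
    l1_eq (μ := ν) (S := μ.support ∪ ν.support) Finset.subset_union_right,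
    ← Finset.sum_add_distrib]
  exact Finset.sum_le_sum fun t _ => by rw [Finsupp.add_apply]; exact abs_add_le _ _

lemma l1_smul (c : ℝ) (μ : List ℕ →₀ ℝ) : l1 (c • μ) = |c| * l1 μ := by
  rw [l1_eq (S := μ.support) Finsupp.support_smul, l1_eq (μ := μ) (S := μ.support) le_rfl,
    Finset.mul_sum]
  exact Finset.sum_congr rfl fun t _ => by
    rw [Finsupp.smul_apply, smul_eq_mul, abs_mul]

lemma l1_neg (μ : List ℕ →₀ ℝ) : l1 (-μ) = l1 μ := by
  have := l1_smul (-1) μ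
  simpa using this

lemma l1_single (t : List ℕ) (r : ℝ) : l1 (Finsupp.single t r) = |r| := by
  rw [l1, Finsupp.sum_single_index]; simp

lemma aM_apply {μ : List ℕ →₀ ℝ} {S : Finset (List ℕ)} (h : μ.support ⊆ S) (s : List ℕ) :
    aM μ s = up S μ s := by
  have h1 : aM μ = ∑ t ∈ S, μ t • bb t := by
    rw [aM, Finsupp.linearCombination_apply]
    exact Finsupp.sum_of_support_subset μ h _ (by simp)
  rw [h1, lp.coeFn_sum, Finset.sum_apply, up]
  refine Finset.sum_congr rfl fun t _ => ?_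
  rw [lp.coeFn_smul, Pi.smul_apply, bb_apply, smul_eq_mul]
  split_ifs <;> simp

lemma aM_single (t : List ℕ) (r : ℝ) : aM (Finsupp.single t r) = r • bb t := by
  rw [aM, Finsupp.linearCombination_single]

/-- measures supported on the sequences of length at most `k` -/
def Mk (k : ℕ) : Submodule ℝ (List ℕ →₀ ℝ) := Finsupp.supported ℝ ℝ {t | t.length ≤ k}

lemma mem_Mk {k : ℕ} {μ : List ℕ →₀ ℝ} : μ ∈ Mk k ↔ ∀ t ∈ μ.support, t.length ≤ k := by
  rw [Mk, Finsupp.mem_supported]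
  rfl

lemma norm_aM_le {k : ℕ} {μ : List ℕ →₀ ℝ} (h : μ ∈ Mk k) :
    ‖aM μ‖ ≤ Real.sqrt (k + 1) * l1 μ := by
  rw [aM, Finsupp.linearCombination_apply, l1, Finsupp.sum, Finsupp.sum, Finset.mul_sum]
  refine (norm_sum_le _ _).trans (Finset.sum_le_sum fun t ht => ?_)
  rw [norm_smul, Real.norm_eq_abs, mul_comm]
  refine mul_le_mul_of_nonneg_right ?_ (abs_nonneg _)
  apply Real.le_sqrt_of_sq_le
  refine (norm_bb_sq_le t).trans ?_
  have := mem_Mk.mp h t ht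
  have h2 : (t.length : ℝ) ≤ k := by exact_mod_cast this
  linarith

/-- the functional minimised in `K` -/
def JJ (μ : List ℕ →₀ ℝ) (x : HH) : ℝ := Real.sqrt (l1 μ ^ 2 + ‖x - aM μ‖ ^ 2)

lemma JJ_nonneg (μ : List ℕ →₀ ℝ) (x : HH) : 0 ≤ JJ μ x := Real.sqrt_nonneg _

lemma JJ_sq (μ : List ℕ →₀ ℝ) (x : HH) : JJ μ x ^ 2 = l1 μ ^ 2 + ‖x - aM μ‖ ^ 2 :=
  Real.sq_sqrt (by positivity)

lemma minkowski (a b c d : ℝ) :
    Real.sqrt ((a + c) ^ 2 + (b + d) ^ 2) ≤ Real.sqrt (a ^ 2 + b ^ 2) +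
      Real.sqrt (c ^ 2 + d ^ 2) := by
  rw [Real.sqrt_le_left (by positivity)]
  have h1 : 0 ≤ a ^ 2 + b ^ 2 := by positivity
  have h2 : 0 ≤ c ^ 2 + d ^ 2 := by positivity
  have h3 : a * c + b * d ≤ Real.sqrt (a ^ 2 + b ^ 2) * Real.sqrt (c ^ 2 + d ^ 2) := by
    rw [← Real.sqrt_mul h1]
    apply Real.le_sqrt_of_sq_le
    nlinarith [sq_nonneg (a * d - b * c)]
  nlinarith [Real.sq_sqrt h1, Real.sq_sqrt h2]

lemma JJ_add (μ ν : List ℕ →₀ ℝ) (x y : HH) : JJ (μ + ν) (x + y) ≤ JJ μ x + JJ ν y := by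
  unfold JJ
  have h1 : ‖x + y - aM (μ + ν)‖ ≤ ‖x - aM μ‖ + ‖y - aM ν‖ := by
    have : x + y - aM (μ + ν) = (x - aM μ) + (y - aM ν) := by rw [map_add]; abel
    rw [this]; exact norm_add_le _ _
  have h2 := l1_add_le μ ν
  refine le_trans (Real.sqrt_le_sqrt ?_)
    (minkowski (l1 μ) ‖x - aM μ‖ (l1 ν) ‖y - aM ν‖)
  have h3 := pow_le_pow_left₀ (l1_nonneg (μ + ν)) h2 2
  have h4 := pow_le_pow_left₀ (norm_nonneg _) h1 2
  linarith

lemma JJ_smul (c : ℝ) (μ : List ℕ →₀ ℝ) (x : HH) : JJ (c • μ) (c • x) = |c| * JJ μ x := by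
  unfold JJ
  have h1 : c • x - aM (c • μ) = c • (x - aM μ) := by rw [map_smul, smul_sub]
  rw [h1, l1_smul, norm_smul, Real.norm_eq_abs, mul_pow, mul_pow, ← mul_add, sq_abs,
    Real.sqrt_mul (sq_nonneg c), Real.sqrt_sq_eq_abs]

/-- the norm `K` -/
def K (k : ℕ) (x : HH) : ℝ := ⨅ μ : Mk k, JJ μ x

lemma K_bdd (k : ℕ) (x : HH) : BddBelow (Set.range fun μ : Mk k => JJ μ x) :=
  ⟨0, by rintro _ ⟨μ, rfl⟩; exact JJ_nonneg _ _⟩

lemma K_nonneg (k : ℕ) (x : HH) : 0 ≤ K k x := Real.iInf_nonneg fun _ => JJ_nonneg _ _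

lemma K_le {k : ℕ} {μ : List ℕ →₀ ℝ} (h : μ ∈ Mk k) (x : HH) : K k x ≤ JJ μ x :=
  ciInf_le (K_bdd k x) ⟨μ, h⟩

lemma K_sq_le {k : ℕ} {μ : List ℕ →₀ ℝ} (h : μ ∈ Mk k) (x : HH) :
    K k x ^ 2 ≤ l1 μ ^ 2 + ‖x - aM μ‖ ^ 2 := by
  rw [← JJ_sq]
  exact pow_le_pow_left₀ (K_nonneg k x) (K_le h x) 2

lemma K_near (k : ℕ) (x : HH) {δ : ℝ} (hδ : 0 < δ) : ∃ μ ∈ Mk k, JJ μ x < K k x + δ := by
  obtain ⟨⟨μ, hμ⟩, h⟩ := exists_lt_of_ciInf_lt (lt_add_of_pos_right (K k x) hδ)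
  exact ⟨μ, hμ, h⟩

lemma K_near_sq (k : ℕ) (x : HH) {δ : ℝ} (hδ : 0 < δ) :
    ∃ μ ∈ Mk k, l1 μ ^ 2 + ‖x - aM μ‖ ^ 2 < K k x ^ 2 + δ := by
  have h0 := K_nonneg k x
  have hη : 0 < min 1 (δ / (2 * K k x + 2)) := by positivity
  obtain ⟨μ, hμ, h⟩ := K_near k x hη
  refine ⟨μ, hμ, ?_⟩
  rw [← JJ_sq]
  set e := min 1 (δ / (2 * K k x + 2)) with he
  have h1 : e ≤ 1 := min_le_left _ _
  have h2 : e * (2 * K k x + 2) ≤ δ := by
    have := min_le_right 1 (δ / (2 * K k x + 2))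
    rw [← he] at this
    rwa [le_div_iff₀ (by positivity)] at this
  have h3 := JJ_nonneg μ x
  nlinarith

lemma K_add_le (k : ℕ) (x y : HH) : K k (x + y) ≤ K k x + K k y := by
  apply le_of_forall_pos_le_add
  intro δ hδ
  obtain ⟨μ, hμ, h1⟩ := K_near k x (half_pos hδ)
  obtain ⟨ν, hν, h2⟩ := K_near k y (half_pos hδ)
  have h3 := K_le ((Mk k).add_mem hμ hν) (x + y)
  have h4 := JJ_add μ ν x y
  linarith

lemma K_zero (k : ℕ) : K k 0 = 0 := by
  apply le_antisymm _ (K_nonneg k 0)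
  have := K_le (Mk k).zero_mem 0
  simpa [JJ, l1_zero] using this

lemma K_smul (k : ℕ) (c : ℝ) (x : HH) : K k (c • x) = |c| * K k x := by
  have key : ∀ (c : ℝ) (x : HH), K k (c • x) ≤ |c| * K k x := by
    intro c x
    apply le_of_forall_pos_le_add
    intro δ hδ
    obtain ⟨μ, hμ, h1⟩ := K_near k x (δ := δ / (|c| + 1)) (by positivity)
    have h2 := K_le ((Mk k).smul_mem c hμ) (c • x)
    rw [JJ_smul] at h2
    have h3 : |c| * JJ μ x ≤ |c| * (K k x + δ / (|c| + 1)) :=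
      mul_le_mul_of_nonneg_left h1.le (abs_nonneg c)
    have h4 : |c| * (δ / (|c| + 1)) ≤ δ := by
      rw [mul_div_assoc', div_le_iff₀ (by positivity)]
      nlinarith [abs_nonneg c]
    linarith
  by_cases hc : c = 0
  · rw [hc, zero_smul, K_zero]; simp
  · apply le_antisymm (key c x)
    have h1 := key c⁻¹ (c • x)
    rw [smul_smul, inv_mul_cancel₀ hc, one_smul, abs_inv] at h1
    have h2 := mul_le_mul_of_nonneg_left h1 (abs_nonneg c)
    rwa [← mul_assoc, mul_inv_cancel₀ (abs_ne_zero.mpr hc), one_mul] at h2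

lemma K_le_norm (k : ℕ) (x : HH) : K k x ≤ ‖x‖ := by
  have := K_le (Mk k).zero_mem x
  simpa [JJ, l1_zero] using this

lemma norm_le_K (k : ℕ) (x : HH) : ‖x‖ ≤ (Real.sqrt (k + 1) + 1) * K k x := by
  apply le_of_forall_pos_le_add
  intro δ hδ
  have hpos : 0 < Real.sqrt (k + 1) + 1 := by positivity
  obtain ⟨μ, hμ, h1⟩ := K_near k x (δ := δ / (Real.sqrt (k + 1) + 1)) (by positivity)
  have h2 : l1 μ ≤ JJ μ x := by
    apply Real.le_sqrt_of_sq_le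
    nlinarith [sq_nonneg ‖x - aM μ‖]
  have h3 : ‖x - aM μ‖ ≤ JJ μ x := by
    apply Real.le_sqrt_of_sq_le
    nlinarith [sq_nonneg (l1 μ)]
  have h4 : ‖x‖ ≤ ‖aM μ‖ + ‖x - aM μ‖ := by
    have := norm_add_le (aM μ) (x - aM μ)
    simpa using this
  have h5 := norm_aM_le hμ
  have h6 : Real.sqrt (k + 1) * l1 μ ≤ Real.sqrt (k + 1) * JJ μ x :=
    mul_le_mul_of_nonneg_left h2 (Real.sqrt_nonneg _)
  have h7 : (Real.sqrt (k + 1) + 1) * JJ μ x ≤
      (Real.sqrt (k + 1) + 1) * (K k x + δ / (Real.sqrt (k + 1) + 1)) :=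
    mul_le_mul_of_nonneg_left h1.le hpos.le
  have h8 : (Real.sqrt (k + 1) + 1) * (δ / (Real.sqrt (k + 1) + 1)) = δ := by
    field_simp
  nlinarith

end

end Vale.Agent.P069
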