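import Vale.Agent.P069.KNorm

/-! P069: the midpoint inequality for the norm `K`. -/

namespace Vale.Agent.P069

open Finset

noncomputable section

open Classical

variable {A : Finset (List ℕ)}

/-- restriction to the coordinates in `A` -/
def QA (A : Finset (List ℕ)) (w : HH) : HH := ∑ s ∈ A, lp.single 2 s (w s)

lemma QA_apply (w : HH) (s : List ℕ) : QA A w s = if s ∈ A then w s else 0 := by
  rw [QA, lp.coeFn_sum, Finset.sum_apply]
  have h1 : ∀ r ∈ A, (lp.single 2 r (w r) : HH) s = if s = r then w s else 0 := by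
    intro r _
    rw [lp.single_apply, Pi.single_apply]
    split_ifs with h
    · rw [h]
    · rfl
  rw [Finset.sum_congr rfl h1, Finset.sum_ite_eq]

lemma QA_norm (w : HH) : ‖w‖ ^ 2 = ‖QA A w‖ ^ 2 + ‖w - QA A w‖ ^ 2 := by
  have h1 := lp.norm_compl_sum_single two_toReal_pos w A
  have h2 := lp.norm_sum_single two_toReal_pos (fun s => w s) A
  have h3 : (2 : ENNReal).toReal = 2 := by norm_num
  rw [h3] at h1 h2
  change ‖w - QA A w‖ ^ (2 : ℝ) = _ at h1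
  change ‖QA A w‖ ^ (2 : ℝ) = _ at h2
  rw [← h2] at h1
  simp only [Real.rpow_two] at h1
  linarith

/-- push forward of a measure to `A` -/
def push (A : Finset (List ℕ)) (α : List ℕ →₀ ℝ) : List ℕ →₀ ℝ := α.mapDomain (qA A)

lemma l1_push_le (α : List ℕ →₀ ℝ) : l1 (push A α) ≤ l1 α := by
  have h1 : push A α = α.sum fun t r => Finsupp.single (qA A t) r := rfl
  rw [h1]
  have h2 : ∀ S : Finset (List ℕ), l1 (∑ t ∈ S, Finsupp.single (qA A t) (α t)) ≤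
      ∑ t ∈ S, |α t| := by
    intro S
    induction S using Finset.induction_on with
    | empty => simp [l1_zero]
    | insert t S ht ih =>
      rw [Finset.sum_insert ht, Finset.sum_insert ht]
      refine (l1_add_le _ _).trans ?_
      rw [l1_single]
      linarith
  exact h2 α.support

lemma push_mem {k : ℕ} {α : List ℕ →₀ ℝ} (h : α ∈ Mk k) : push A α ∈ Mk k := by
  rw [mem_Mk] at h ⊢
  intro t ht
  have h1 := Finsupp.mapDomain_support ht
  rw [Finset.mem_image] at h1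
  obtain ⟨s, hs, rfl⟩ := h1
  exact (qA_prefix s).length_le.trans (h s hs)

lemma aM_push (h0 : [] ∈ A) (hAd : ∀ s t : List ℕ, s <+: t → t ∈ A → s ∈ A)
    (α : List ℕ →₀ ℝ) : aM (push A α) = QA A (aM α) := by
  ext s
  rw [QA_apply]
  have h1 : aM (push A α) s = ∑ t ∈ α.support, (if s <+: qA A t then α t else 0) := by
    have e1 : aM (push A α) = ∑ t ∈ α.support, α t • bb (qA A t) := by
      rw [aM, Finsupp.linearCombination_apply, push,
        Finsupp.sum_mapDomain_index (by simp) (fun _ _ _ => add_smul _ _ _)]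
      rfl
    rw [e1, lp.coeFn_sum, Finset.sum_apply]
    refine Finset.sum_congr rfl fun t _ => ?_
    rw [lp.coeFn_smul, Pi.smul_apply, bb_apply, smul_eq_mul]
    split_ifs <;> simp
  rw [h1]
  split_ifs with hs
  · rw [aM_apply (S := α.support) le_rfl, up]
    refine Finset.sum_congr rfl fun t _ => ?_
    by_cases h : s <+: t
    · rw [if_pos h, if_pos (qA_max hs h)]
    · rw [if_neg h, if_neg (fun h' => h (h'.trans (qA_prefix t)))]
  · refine Finset.sum_eq_zero fun t _ => ?_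
    rw [if_neg]
    intro h
    exact hs (hAd _ _ h (qA_mem h0 t))

lemma l1_push_eq (α : List ℕ →₀ ℝ) {S : Finset (List ℕ)} (hS : α.support ⊆ S) :
    l1 (push A α) =
      ∑ t ∈ S, (if 0 ≤ push A α (qA A t) then (1 : ℝ) else -1) * α t := by
  have h1 : l1 (push A α) = (push A α).sum fun s r =>
      (if 0 ≤ push A α s then (1 : ℝ) else -1) * r := by
    rw [l1]
    refine Finset.sum_congr rfl fun s _ => ?_
    simp only
    split_ifs with h
    · rw [abs_of_nonneg h, one_mul]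
    · rw [abs_of_neg (not_le.mp h)]; ring
  rw [h1]
  have h2 : (push A α).sum (fun s r => (if 0 ≤ push A α s then (1 : ℝ) else -1) * r) =
      α.sum fun t r => (if 0 ≤ push A α (qA A t) then (1 : ℝ) else -1) * r := by
    have := Finsupp.sum_mapDomain_index (f := qA A) (s := α)
      (h := fun s r => (if 0 ≤ push A α s then (1 : ℝ) else -1) * r)
      (by simp) (fun _ _ _ => mul_add _ _ _)
    exact this
  rw [h2]
  exact Finsupp.sum_of_support_subset α hS _ (by simp)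

lemma scal1 {Ky L r σ P h : ℝ} (h1 : Ky ^ 2 ≤ L ^ 2 + r ^ 2) (hL0 : 0 ≤ L) (hL : L ≤ 3 * σ)
    (hr0 : 0 ≤ r) (hr : r ≤ 2 * P + h) : Ky ^ 2 ≤ 9 * (σ ^ 2 + P ^ 2 + h ^ 2) := by
  have h3 : L ^ 2 ≤ (3 * σ) ^ 2 := pow_le_pow_left₀ hL0 hL 2
  have h4 : r ^ 2 ≤ (2 * P + h) ^ 2 := pow_le_pow_left₀ hr0 hr 2
  have h5 : (2 * P + h) ^ 2 ≤ 5 * (P ^ 2 + h ^ 2) := by
    have : 5 * (P ^ 2 + h ^ 2) - (2 * P + h) ^ 2 = (P - 2 * h) ^ 2 := by ring
    have h6 := sq_nonneg (P - 2 * h)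
    linarith
  have h7 := sq_nonneg P
  have h8 := sq_nonneg h
  have h9 : (3 * σ) ^ 2 = 9 * σ ^ 2 := by ring
  linarith

lemma scal2 {Kx Ky Kp Km l1μ l1ν nw nh np nq u v M σ L δ : ℝ}
    (hμ : l1μ ^ 2 + u ^ 2 < Kp ^ 2 + δ / 2) (hν : l1ν ^ 2 + v ^ 2 < Km ^ 2 + δ / 2)
    (hpar : u ^ 2 + v ^ 2 = 2 * nw ^ 2 + 2 * nh ^ 2) (hM : 2 * M ^ 2 ≤ l1μ ^ 2 + l1ν ^ 2)
    (hM2 : L ^ 2 + σ ^ 2 ≤ M ^ 2) (hw : nw ^ 2 = nq ^ 2 + np ^ 2)
    (hKx : Kx ^ 2 ≤ L ^ 2 + nq ^ 2) (hKy : Ky ^ 2 ≤ 9 * (σ ^ 2 + np ^ 2 + nh ^ 2)) :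
    2 * Kx ^ 2 + 2 / 9 * Ky ^ 2 ≤ Kp ^ 2 + Km ^ 2 + δ := by
  linarith

lemma abs_add_abs_sub (a b : ℝ) : |a + b| + |a - b| = 2 * max |a| |b| := by
  rcases le_total |a| |b| with h' | h'
  · rw [max_eq_right h']
    rcases abs_cases a with ⟨e1, _⟩ | ⟨e1, _⟩ <;>
    rcases abs_cases b with ⟨e2, _⟩ | ⟨e2, _⟩ <;>
    rcases abs_cases (a + b) with ⟨e3, _⟩ | ⟨e3, _⟩ <;>
    rcases abs_cases (a - b) with ⟨e4, _⟩ | ⟨e4, _⟩ <;> linarith
  · rw [max_eq_left h']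
    rcases abs_cases a with ⟨e1, _⟩ | ⟨e1, _⟩ <;>
    rcases abs_cases b with ⟨e2, _⟩ | ⟨e2, _⟩ <;>
    rcases abs_cases (a + b) with ⟨e3, _⟩ | ⟨e3, _⟩ <;>
    rcases abs_cases (a - b) with ⟨e4, _⟩ | ⟨e4, _⟩ <;> linarith

lemma mass {α η : List ℕ →₀ ℝ} {S : Finset (List ℕ)} (hα : α.support ⊆ S)
    (hη : η.support ⊆ S) : l1 (α + η) + l1 (α - η) = 2 * ∑ t ∈ S, max |α t| |η t| := by
  have h1 : (α + η).support ⊆ S := Finsupp.support_add.trans (Finset.union_subset hα hη)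
  have h2 : (α - η).support ⊆ S := Finsupp.support_sub.trans (Finset.union_subset hα hη)
  rw [l1_eq h1, l1_eq h2, Finset.mul_sum, ← Finset.sum_add_distrib]
  refine Finset.sum_congr rfl fun t _ => ?_
  rw [Finsupp.add_apply, Finsupp.sub_apply]
  exact abs_add_abs_sub _ _

/-- excess mass -/
def sig (A S : Finset (List ℕ)) (α η : List ℕ →₀ ℝ) : ℝ :=
  ∑ t ∈ S, max |α t| |η t| - l1 (push A α)

lemma sig_eq {α η : List ℕ →₀ ℝ} {S : Finset (List ℕ)} (hα : α.support ⊆ S) :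
    sig A S α η = ∑ t ∈ S, (max |α t| |η t| -
      (if 0 ≤ push A α (qA A t) then (1 : ℝ) else -1) * α t) := by
  rw [sig, l1_push_eq α hα, ← Finset.sum_sub_distrib]

lemma sig_nonneg {α η : List ℕ →₀ ℝ} {S : Finset (List ℕ)} (hα : α.support ⊆ S) :
    0 ≤ sig A S α η := by
  rw [sig_eq hα]
  refine Finset.sum_nonneg fun t _ => ?_
  have h1 := le_max_left |α t| |η t|
  have h2 : (if 0 ≤ push A α (qA A t) then (1 : ℝ) else -1) * α t ≤ |α t| := by
    split_ifs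
    · rw [one_mul]; exact le_abs_self _
    · rw [neg_one_mul]; exact neg_le_abs _
  linarith

/-- splitting of the measure `η` -/
lemma split' (k : ℕ) (h0 : [] ∈ A) (hAd : ∀ s t : List ℕ, s <+: t → t ∈ A → s ∈ A)
    {α η : List ℕ →₀ ℝ} {S : Finset (List ℕ)} (hαS : α.support ⊆ S) (hηS : η.support ⊆ S)
    (hSk : ∀ t ∈ S, t.length ≤ k) :
    ∃ ζ ξ : List ℕ →₀ ℝ, ζ ∈ Mk k ∧ l1 ζ ≤ 3 / 2 * sig A S α η ∧
      (∀ s, s ∉ A → aM η s = aM ζ s + aM ξ s) ∧ (∀ s, s ∉ A → |aM ξ s| ≤ 2 * |aM α s|) := by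
  set ε : List ℕ → ℝ := fun s => if 0 ≤ push A α s then (1 : ℝ) else -1 with hε
  have hε1 : ∀ t, ε t = 1 ∨ ε t = -1 := by
    intro t
    simp only [hε]
    split_ifs
    · left; rfl
    · right; rfl
  obtain ⟨ζ, ξ, hζS, hξS, hηeq, hζmass, hξle⟩ := split h0 hAd S (fun t => α t) (fun t => η t) ε
    (fun t ht => Finsupp.notMem_support_iff.mp (fun h' => ht (hαS h')))
    (fun t ht => Finsupp.notMem_support_iff.mp (fun h' => ht (hηS h'))) hε1
  have hσsum : sig A S α η = ∑ t ∈ S, (max |α t| |η t| - ε (qA A t) * α t) := sig_eq hαS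
  rw [← hσsum] at hζmass
  have hζfS : (Finsupp.onFinset S ζ
    (fun t ht => by_contra fun h' => ht (hζS t h'))).support ⊆ S :=
    Finsupp.support_onFinset_subset
  have hξfS : (Finsupp.onFinset S ξ
    (fun t ht => by_contra fun h' => ht (hξS t h'))).support ⊆ S :=
    Finsupp.support_onFinset_subset
  refine ⟨Finsupp.onFinset S ζ (fun t ht => by_contra fun h' => ht (hζS t h')),
    Finsupp.onFinset S ξ (fun t ht => by_contra fun h' => ht (hξS t h')), ?_, ?_, ?_, ?_⟩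
  · exact mem_Mk.mpr fun t ht => hSk t (hζfS ht)
  · rw [l1_eq hζfS]
    exact hζmass
  · intro s hs
    rw [aM_apply hηS, aM_apply hζfS, aM_apply hξfS, up, up, up, ← Finset.sum_add_distrib]
    refine Finset.sum_congr rfl fun t _ => ?_
    split_ifs with h'
    · exact hηeq t (fun ht => hs (hAd s t h' ht))
    · ring
  · intro s hs
    rw [aM_apply hξfS, aM_apply hαS]
    exact hξle s hs

lemma remainder (h0 : [] ∈ A) (hAd : ∀ s t : List ℕ, s <+: t → t ∈ A → s ∈ A)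
    {η ζ ξ : List ℕ →₀ ℝ} {y : HH} (hy : ∀ s, s ∈ A → y s = 0)
    (heq : ∀ s, s ∉ A → aM η s = aM ζ s + aM ξ s) :
    y - aM (ζ - push A ζ) = (aM ξ - QA A (aM ξ)) +
      ((y - aM η) - QA A (y - aM η)) := by
  rw [map_sub, aM_push h0 hAd]
  ext s
  simp only [lp.coeFn_sub, lp.coeFn_add, Pi.sub_apply, Pi.add_apply, QA_apply]
  split_ifs with hs
  · rw [hy s hs]; ring
  · rw [heq s hs]; ring

lemma rem_bound {α ξ : List ℕ →₀ ℝ} {x : HH} (hx : ∀ s, s ∉ A → x s = 0)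
    (hle : ∀ s, s ∉ A → |aM ξ s| ≤ 2 * |aM α s|) :
    ‖aM ξ - QA A (aM ξ)‖ ≤ 2 * ‖(x - aM α) - QA A (x - aM α)‖ := by
  have h1 : ‖aM ξ - QA A (aM ξ)‖ ≤ ‖(2 : ℝ) • ((x - aM α) - QA A (x - aM α))‖ := by
    refine lp.norm_mono (by norm_num) fun s => ?_
    simp only [lp.coeFn_sub, lp.coeFn_smul, Pi.sub_apply, Pi.smul_apply, QA_apply]
    rw [Real.norm_eq_abs, Real.norm_eq_abs, smul_eq_mul, abs_mul,
      abs_of_pos (by norm_num : (0 : ℝ) < 2)]
    split_ifs with hs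
    · simp
    · rw [sub_zero, sub_zero, hx s hs, zero_sub, abs_neg]
      exact hle s hs
  rwa [norm_smul, Real.norm_eq_abs, abs_of_pos (by norm_num : (0 : ℝ) < 2)] at h1

lemma compl_le (h : HH) : ‖h - QA A h‖ ≤ ‖h‖ := by
  refine lp.norm_mono (by norm_num) fun s => ?_
  rw [lp.coeFn_sub, Pi.sub_apply, QA_apply]
  split_ifs <;> simp

lemma Ky_bound (k : ℕ) (h0 : [] ∈ A) (hAd : ∀ s t : List ℕ, s <+: t → t ∈ A → s ∈ A)
    {α η : List ℕ →₀ ℝ} {S : Finset (List ℕ)} (hαS : α.support ⊆ S) (hηS : η.support ⊆ S)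
    (hSk : ∀ t ∈ S, t.length ≤ k) (x y : HH) (hx : ∀ s, s ∉ A → x s = 0)
    (hy : ∀ s, s ∈ A → y s = 0) :
    K k y ^ 2 ≤ 9 * (sig A S α η ^ 2 + ‖(x - aM α) - QA A (x - aM α)‖ ^ 2 +
      ‖y - aM η‖ ^ 2) := by
  obtain ⟨ζ, ξ, hζM, hζl1, heq, hle⟩ := split' k h0 hAd hαS hηS hSk
  have hζ2M : ζ - push A ζ ∈ Mk k := (Mk k).sub_mem hζM (push_mem hζM)
  have hζ2l1 : l1 (ζ - push A ζ) ≤ 3 * sig A S α η := by
    have h1 := l1_add_le ζ (-push A ζ)
    rw [l1_neg, ← sub_eq_add_neg] at h1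
    have h2 := l1_push_le (A := A) ζ
    linarith
  have h1 := K_sq_le hζ2M y
  rw [remainder h0 hAd hy heq] at h1
  exact scal1 h1 (l1_nonneg _) hζ2l1 (norm_nonneg _)
    ((norm_add_le _ _).trans (add_le_add (rem_bound hx hle) (compl_le _)))

lemma Kx_bound (k : ℕ) (h0 : [] ∈ A) (hAd : ∀ s t : List ℕ, s <+: t → t ∈ A → s ∈ A)
    {α : List ℕ →₀ ℝ} (hα : α ∈ Mk k) (x : HH) (hx : ∀ s, s ∉ A → x s = 0) :
    K k x ^ 2 ≤ l1 (push A α) ^ 2 + ‖QA A (x - aM α)‖ ^ 2 := by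
  have h1 := K_sq_le (push_mem (A := A) hα) x
  have h2 : x - aM (push A α) = QA A (x - aM α) := by
    rw [aM_push h0 hAd]
    ext s
    simp only [lp.coeFn_sub, Pi.sub_apply, QA_apply]
    split_ifs with hs
    · rfl
    · rw [hx s hs]; ring
  rwa [h2] at h1

/-- **The midpoint inequality.** -/
theorem K_mid (k : ℕ) (h0 : [] ∈ A) (hAd : ∀ s t : List ℕ, s <+: t → t ∈ A → s ∈ A)
    (x y : HH) (hx : ∀ s, s ∉ A → x s = 0) (hy : ∀ s, s ∈ A → y s = 0) :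
    2 * K k x ^ 2 + 2 / 9 * K k y ^ 2 ≤ K k (x + y) ^ 2 + K k (x - y) ^ 2 := by
  apply le_of_forall_pos_le_add
  intro δ hδ
  obtain ⟨μ, hμ, hμ1⟩ := K_near_sq k (x + y) (half_pos hδ)
  obtain ⟨ν, hν, hν1⟩ := K_near_sq k (x - y) (half_pos hδ)
  obtain ⟨α, η, hα, hη, hμαη, hναη⟩ : ∃ α η : List ℕ →₀ ℝ, α ∈ Mk k ∧ η ∈ Mk k ∧
      μ = α + η ∧ ν = α - η := by
    refine ⟨(1 / 2 : ℝ) • (μ + ν), (1 / 2 : ℝ) • (μ - ν),
      (Mk k).smul_mem _ ((Mk k).add_mem hμ hν), (Mk k).smul_mem _ ((Mk k).sub_mem hμ hν), ?_, ?_⟩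
    · rw [← smul_add]
      have : μ + ν + (μ - ν) = (2 : ℝ) • μ := by rw [two_smul]; abel
      rw [this, smul_smul]; norm_num
    · rw [← smul_sub]
      have : μ + ν - (μ - ν) = (2 : ℝ) • ν := by rw [two_smul]; abel
      rw [this, smul_smul]; norm_num
  have hu : x + y - aM μ = (x - aM α) + (y - aM η) := by rw [hμαη, map_add]; abel
  have hv : x - y - aM ν = (x - aM α) - (y - aM η) := by rw [hναη, map_sub]; abel
  rw [hu] at hμ1
  rw [hv] at hν1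
  have hpar := parallelogram_law_with_norm ℝ (x - aM α) (y - aM η)
  have hpar' : ‖(x - aM α) + (y - aM η)‖ ^ 2 + ‖(x - aM α) - (y - aM η)‖ ^ 2 =
      2 * ‖x - aM α‖ ^ 2 + 2 * ‖y - aM η‖ ^ 2 := by
    rw [hpar]; ring
  have hαS : α.support ⊆ α.support ∪ η.support := Finset.subset_union_left
  have hηS : η.support ⊆ α.support ∪ η.support := Finset.subset_union_right
  have hSk : ∀ t ∈ α.support ∪ η.support, t.length ≤ k := by
    intro t ht
    rw [Finset.mem_union] at ht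
    rcases ht with ht | ht
    · exact mem_Mk.mp hα t ht
    · exact mem_Mk.mp hη t ht
  have hmass := mass hαS hηS
  rw [← hμαη, ← hναη] at hmass
  have hMsq : 2 * (∑ t ∈ α.support ∪ η.support, max |α t| |η t|) ^ 2 ≤
      l1 μ ^ 2 + l1 ν ^ 2 := by
    have h1 : ∑ t ∈ α.support ∪ η.support, max |α t| |η t| = (l1 μ + l1 ν) / 2 := by linarith
    rw [h1]
    have h2 := sq_nonneg (l1 μ - l1 ν)
    linarith [show 2 * ((l1 μ + l1 ν) / 2) ^ 2 = l1 μ ^ 2 + l1 ν ^ 2 -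
      (l1 μ - l1 ν) ^ 2 / 2 by ring]
  have hσ0 := sig_nonneg (A := A) (η := η) hαS
  have hM2 : l1 (push A α) ^ 2 + sig A (α.support ∪ η.support) α η ^ 2 ≤
      (∑ t ∈ α.support ∪ η.support, max |α t| |η t|) ^ 2 := by
    have h1 : ∑ t ∈ α.support ∪ η.support, max |α t| |η t| =
        l1 (push A α) + sig A (α.support ∪ η.support) α η := by rw [sig]; ring
    rw [h1]
    have h2 := mul_nonneg (l1_nonneg (push A α)) hσ0
    linarith [show (l1 (push A α) + sig A (α.support ∪ η.support) α η) ^ 2 =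
      l1 (push A α) ^ 2 + sig A (α.support ∪ η.support) α η ^ 2 +
        2 * (l1 (push A α) * sig A (α.support ∪ η.support) α η) by ring]
  exact scal2 hμ1 hν1 hpar' hMsq hM2 (QA_norm (A := A) (x - aM α))
    (Kx_bound k h0 hAd hα x hx) (Ky_bound k h0 hAd hαS hηS hSk x y hx hy)

end

end Vale.Agent.P069
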