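import Vale.Agent.P069.Space

/-! P069: `XX` has no equivalent AUC norm. -/

namespace Vale.Agent.P069

open Finset Filter Topology

noncomputable section

open Classical

/-- branch vectors in `XX` -/
def bX (k : ℕ) (t : List ℕ) : XX := lp.single 2 k ((toH k).symm (bb t))

/-- difference vectors in `XX` -/
def eX (k : ℕ) (t : List ℕ) : XX := lp.single 2 k ((toH k).symm (ev t))

lemma bb_nil : bb [] = ev [] := by
  ext s
  rw [bb_apply, ev_apply]
  simp [List.prefix_nil]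

lemma bb_snoc (t : List ℕ) (n : ℕ) : bb (t ++ [n]) = bb t + ev (t ++ [n]) := by
  ext s
  rw [lp.coeFn_add, Pi.add_apply, bb_apply, bb_apply, ev_apply]
  have h1 : s <+: t ++ [n] ↔ s <+: t ∨ s = t ++ [n] := by
    rw [List.prefix_concat_iff]
    tauto
  by_cases h2 : s = t ++ [n]
  · have h3 : ¬ s <+: t := by
      intro h
      have := h.length_le
      rw [h2, List.length_append] at this
      simp at this
    rw [if_pos (h1.mpr (Or.inr h2)), if_neg h3, if_pos h2]; ring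
  · by_cases h3 : s <+: t
    · rw [if_pos (h1.mpr (Or.inl h3)), if_pos h3, if_neg h2]; ring
    · rw [if_neg (by tauto), if_neg h3, if_neg h2]; ring

lemma bX_nil (k : ℕ) : bX k [] = eX k [] := by rw [bX, eX, bb_nil]

lemma bX_snoc (k : ℕ) (t : List ℕ) (n : ℕ) : bX k (t ++ [n]) = bX k t + eX k (t ++ [n]) := by
  rw [bX, bX, eX, bb_snoc, map_add, lp.single_add]

lemma norm_bX_le {k : ℕ} {t : List ℕ} (ht : t.length ≤ k) : ‖bX k t‖ ≤ 1 := by
  rw [bX, lp.norm_single (by norm_num), EE_norm, LinearEquiv.apply_symm_apply]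
  have h1 : Finsupp.single t (1 : ℝ) ∈ Mk k := by
    rw [mem_Mk]
    intro s hs
    have hs' := Finsupp.support_single_subset hs
    rw [Finset.mem_singleton] at hs'
    rw [hs']; exact ht
  have h2 := K_le h1 (bb t)
  refine h2.trans ?_
  rw [JJ, l1_single, aM_single, one_smul, sub_self, norm_zero]
  simp

lemma norm_eX_ge (k : ℕ) (t : List ℕ) : 1 / 2 ≤ ‖eX k t‖ := by
  rw [eX, lp.norm_single (by norm_num), EE_norm, LinearEquiv.apply_symm_apply]
  apply le_of_forall_pos_le_add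
  intro δ hδ
  obtain ⟨μ, hμ, h1⟩ := K_near k (ev t) hδ
  have h2 : l1 μ ≤ JJ μ (ev t) := by
    apply Real.le_sqrt_of_sq_le
    nlinarith [sq_nonneg ‖ev t - aM μ‖]
  have h3 : ‖ev t - aM μ‖ ≤ JJ μ (ev t) := by
    apply Real.le_sqrt_of_sq_le
    nlinarith [sq_nonneg (l1 μ)]
  have h4 : |aM μ t| ≤ l1 μ := by
    rw [aM_apply (S := μ.support) le_rfl, up, l1_eq (S := μ.support) le_rfl]
    refine (Finset.abs_sum_le_sum_abs _ _).trans (Finset.sum_le_sum fun s _ => ?_)
    split_ifs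
    · exact le_rfl
    · rw [abs_zero]; exact abs_nonneg _
  have h5 : |(ev t - aM μ) t| ≤ ‖ev t - aM μ‖ := by
    have := lp.norm_apply_le_norm (p := 2) (by norm_num) (ev t - aM μ) t
    exact this
  have h6 : (ev t - aM μ) t = 1 - aM μ t := by
    rw [lp.coeFn_sub, Pi.sub_apply, ev_apply, if_pos rfl]
  rw [h6] at h5
  have h7 := abs_sub_abs_le_abs_sub 1 (aM μ t)
  rw [abs_one] at h7
  linarith

lemma norm_eX_le (k : ℕ) (t : List ℕ) : ‖eX k t‖ ≤ 1 := by
  rw [eX, lp.norm_single (by norm_num), EE_norm, LinearEquiv.apply_symm_apply]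
  refine (K_le_norm k _).trans ?_
  rw [ev, lp.norm_single (by norm_num)]
  simp

/-- the children of a node are weakly null -/
lemma weak_null (k : ℕ) (t : List ℕ) (f : XX →L[ℝ] ℝ) :
    Tendsto (fun n => f (eX k (t ++ [n]))) atTop (𝓝 0) := by
  -- pull back to the Hilbert space
  let g : HH →L[ℝ] ℝ :=
    (f.comp (lp.singleContinuousLinearMap ℝ (fun k : ℕ => EE k) 2 k)).comp
      ((toHL k).symm : HH →L[ℝ] EE k)
  have hg : ∀ n, f (eX k (t ++ [n])) = g (ev (t ++ [n])) := fun n => rfl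
  obtain ⟨v, hv⟩ := (InnerProductSpace.toDual ℝ HH).surjective g
  have hgv : ∀ s, g (ev s) = v s := by
    intro s
    rw [← hv, InnerProductSpace.toDual_apply_apply]
    rw [lp.inner_eq_tsum]
    rw [tsum_eq_single s]
    · rw [ev_apply, if_pos rfl]; simp
    · intro r hr
      rw [ev_apply, if_neg hr]; simp
  have h1 : Summable fun s => (v s) ^ 2 := by
    have := (lp.memℓp v).summable two_toReal_pos
    simpa using this
  have hinj : Function.Injective (fun n : ℕ => t ++ [n]) := by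
    intro a b hab
    simpa using hab
  have h2 : Summable fun n : ℕ => (v (t ++ [n])) ^ 2 := h1.comp_injective hinj
  have h3 := h2.tendsto_atTop_zero
  have h4 : Tendsto (fun n : ℕ => |v (t ++ [n])|) atTop (𝓝 0) := by
    have := h3.sqrt
    simpa [Real.sqrt_sq_eq_abs] using this
  simp only [hg, hgv]
  exact (tendsto_zero_iff_abs_tendsto_zero _).mpr h4

/-- far children are close to any given subspace of finite codimension -/
lemma near_F (k : ℕ) (t : List ℕ) {F : Submodule ℝ XX} (hF : F ∈ cof XX) {δ : ℝ}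
    (hδ : 0 < δ) : ∃ n : ℕ, ∃ f ∈ F, ‖eX k (t ++ [n]) - f‖ < δ := by
  obtain ⟨hcl, hfd⟩ := hF
  have hclosed : IsClosed (F : Set XX) := hcl
  -- quotient map
  let π : XX →L[ℝ] (XX ⧸ F) := F.mkQL
  let b := Module.finBasis ℝ (XX ⧸ F)
  have hc : ∀ i, Tendsto (fun n => (b.equivFunL (π (eX k (t ++ [n])))) i) atTop (𝓝 0) := by
    intro i
    exact weak_null k t (((ContinuousLinearMap.proj i).comp
      (b.equivFunL : (XX ⧸ F) →L[ℝ] (Fin (Module.finrank ℝ (XX ⧸ F)) → ℝ))).comp π)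
  have hv : Tendsto (fun n => b.equivFunL (π (eX k (t ++ [n])))) atTop (𝓝 0) :=
    tendsto_pi_nhds.mpr hc
  have hπ : Tendsto (fun n => π (eX k (t ++ [n]))) atTop (𝓝 0) := by
    have h1 := (b.equivFunL.symm.continuous.tendsto 0).comp hv
    simpa [Function.comp_def] using h1
  obtain ⟨n, hn⟩ := ((Metric.tendsto_nhds.mp hπ) δ hδ).exists
  rw [dist_zero_right] at hn
  refine ⟨n, ?_⟩
  have h2 := Submodule.Quotient.norm_mk_lt (S := F) (π (eX k (t ++ [n])))
    (ε := δ - ‖π (eX k (t ++ [n]))‖) (by linarith)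
  obtain ⟨m, hm1, hm2⟩ := h2
  refine ⟨eX k (t ++ [n]) - m, ?_, ?_⟩
  · have h3 : (Submodule.Quotient.mk m : XX ⧸ F) = Submodule.Quotient.mk (eX k (t ++ [n])) := hm1
    have h4 := (Submodule.Quotient.eq F).mp h3.symm
    exact h4
  · rw [sub_sub_cancel]
    linarith

lemma conv_grow {V : Type*} [AddCommGroup V] [Module ℝ V] (N : Seminorm ℝ V) {x y : V}
    (hx1 : N x = 1) {τ τ' δ : ℝ} (hτ : 0 < τ) (hττ' : τ ≤ τ') (hδ : 0 < δ)
    (h : 1 + δ < N (x + τ • y)) : 1 + δ ≤ N (x + τ' • y) := by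
  have hτ'0 : 0 < τ' := lt_of_lt_of_le hτ hττ'
  obtain ⟨l, hl0, hl1, hl⟩ : ∃ l : ℝ, 0 < l ∧ l ≤ 1 ∧ l * τ' = τ :=
    ⟨τ / τ', by positivity, (div_le_one hτ'0).mpr hττ', div_mul_cancel₀ _ hτ'0.ne'⟩
  have e1 : x + τ • y = (1 - l) • x + l • (x + τ' • y) := by
    rw [smul_add, smul_smul, hl, ← add_assoc, ← add_smul, sub_add_cancel, one_smul]
  have e2 : N (x + τ • y) ≤ (1 - l) + l * N (x + τ' • y) := by
    rw [e1]
    refine (map_add_le_add N _ _).trans ?_
    rw [map_smul_eq_mul N (1 - l) x, map_smul_eq_mul N l (x + τ' • y), hx1, Real.norm_eq_abs,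
      Real.norm_eq_abs, abs_of_nonneg (by linarith : 0 ≤ 1 - l), abs_of_pos hl0, mul_one]
  by_contra hcon
  push Not at hcon
  have e3 : l * N (x + τ' • y) < l * (1 + δ) := mul_lt_mul_of_pos_left hcon hl0
  nlinarith

/-- one step of growth along a branch -/
lemma grow (N : Seminorm ℝ XX) {c C : ℝ} (hc : 0 < c)
    (hN : ∀ x, c * ‖x‖ ≤ N x ∧ N x ≤ C * ‖x‖) (hC : 0 < C) {δ : ℝ} (hδ : 0 < δ)
    (hmod : (δ : EReal) < aucModulus N (c / (4 * C))) (k : ℕ) (t : List ℕ)
    (hb0 : 0 < N (bX k t)) (hbC : N (bX k t) ≤ C) :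
    ∃ n : ℕ, (1 + δ / 2) * N (bX k t) ≤ N (bX k (t ++ [n])) := by
  set b := bX k t with hb
  set τ := c / (4 * C) with hτ
  have hτ0 : 0 < τ := by positivity
  set x := (N b)⁻¹ • b with hx
  have hx1 : N x = 1 := by
    rw [hx, map_smul_eq_mul, Real.norm_eq_abs, abs_of_pos (inv_pos.mpr hb0),
      inv_mul_cancel₀ hb0.ne']
  have h1 : (δ : EReal) < ⨆ F ∈ cof XX, ⨅ y ∈ {y : XX | y ∈ F ∧ N y = 1},
      ((N (x + τ • y) - 1 : ℝ) : EReal) := by
    refine hmod.trans_le ?_
    unfold aucModulus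
    exact iInf₂_le x hx1
  rw [lt_iSup_iff] at h1
  obtain ⟨F, h1⟩ := h1
  rw [lt_iSup_iff] at h1
  obtain ⟨hF, h1⟩ := h1
  have h2 : ∀ y ∈ F, N y = 1 → 1 + δ < N (x + τ • y) := by
    intro y hy hy1
    have h3 : (δ : EReal) < ((N (x + τ • y) - 1 : ℝ) : EReal) :=
      h1.trans_le (iInf₂_le y ⟨hy, hy1⟩)
    rw [EReal.coe_lt_coe_iff] at h3
    linarith
  obtain ⟨δ', hδ', hδ'1, hδ'2⟩ : ∃ δ' : ℝ, 0 < δ' ∧ C * δ' ≤ c / 4 ∧ C * δ' ≤ δ / 2 * N b := by
    refine ⟨min (c / (4 * C)) (δ / 2 * N b / C), by positivity, ?_, ?_⟩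
    · have := min_le_left (c / (4 * C)) (δ / 2 * N b / C)
      calc C * min (c / (4 * C)) (δ / 2 * N b / C) ≤ C * (c / (4 * C)) :=
            mul_le_mul_of_nonneg_left this hC.le
        _ = c / 4 := by field_simp
    · have := min_le_right (c / (4 * C)) (δ / 2 * N b / C)
      calc C * min (c / (4 * C)) (δ / 2 * N b / C) ≤ C * (δ / 2 * N b / C) :=
            mul_le_mul_of_nonneg_left this hC.le
        _ = δ / 2 * N b := by field_simp
  obtain ⟨n, f, hfF, hf⟩ := near_F k t hF hδ'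
  refine ⟨n, ?_⟩
  set e := eX k (t ++ [n]) with he
  have hNef : N (e - f) ≤ C * δ' :=
    (hN _).2.trans (mul_le_mul_of_nonneg_left hf.le hC.le)
  have hNe : c / 2 ≤ N e := by
    have := (hN e).1
    have h3 := norm_eX_ge k (t ++ [n])
    rw [← he] at h3
    nlinarith
  have hNf : c / 4 ≤ N f := by
    have h3 : N e ≤ N (e - f) + N f := by
      have := map_add_le_add N (e - f) f
      rwa [sub_add_cancel] at this
    linarith
  have hNf0 : 0 < N f := by linarith
  set y := (N f)⁻¹ • f with hy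
  have hy1 : N y = 1 := by
    rw [hy, map_smul_eq_mul, Real.norm_eq_abs, abs_of_pos (inv_pos.mpr hNf0),
      inv_mul_cancel₀ hNf0.ne']
  have hyF : y ∈ F := F.smul_mem _ hfF
  set τ' := N f / N b with hτ'
  have hττ' : τ ≤ τ' := by
    rw [hτ, hτ', div_le_div_iff₀ (by positivity) hb0]
    nlinarith
  have hτ'0 : 0 < τ' := by positivity
  have h4 := h2 y hyF hy1
  -- convexity
  have h5 : 1 + δ ≤ N (x + τ' • y) := conv_grow N hx1 hτ0 hττ' hδ h4
  have h6 : b + f = N b • (x + τ' • y) := by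
    rw [smul_add, hx, hy, smul_smul, smul_smul, smul_smul, mul_inv_cancel₀ hb0.ne', one_smul,
      hτ', mul_div_cancel₀ _ hb0.ne', mul_inv_cancel₀ hNf0.ne', one_smul]
  have h7 : N b * (1 + δ) ≤ N (b + f) := by
    rw [h6, map_smul_eq_mul, Real.norm_eq_abs, abs_of_pos hb0]
    exact mul_le_mul_of_nonneg_left h5 hb0.le
  have h8 : N (b + f) ≤ N (b + e) + N (e - f) := by
    have e1 : b + f = (b + e) - (e - f) := by abel
    rw [e1]
    exact map_sub_le_add N _ _
  rw [bX_snoc, ← hb, ← he]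
  linarith

theorem not_auc : ¬ AUCRenormable XX := by
  rintro ⟨N, ⟨c, C, hc, hN⟩, hauc⟩
  have hNe : ∀ k t, c / 2 ≤ N (eX k t) := by
    intro k t
    have := (hN (eX k t)).1
    have h3 := norm_eX_ge k t
    nlinarith
  have hC : 0 < C := by
    have h1 := hNe 0 []
    have h2 := (hN (eX 0 [])).2
    have h3 := norm_eX_le 0 []
    by_contra hcon
    push Not at hcon
    nlinarith [norm_nonneg (eX 0 [])]
  have hNb : ∀ k t, t.length ≤ k → N (bX k t) ≤ C := by
    intro k t ht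
    have := (hN (bX k t)).2
    have h3 := norm_bX_le ht
    nlinarith
  have hpos := hauc (c / (4 * C)) (by positivity)
  obtain ⟨δ, hδ, hδm⟩ := EReal.lt_iff_exists_real_btwn.mp hpos
  have hδ0 : 0 < δ := by
    rw [← EReal.coe_zero, EReal.coe_lt_coe_iff] at hδ
    exact hδ
  have key : ∀ k j : ℕ, j ≤ k → ∃ t : List ℕ, t.length = j ∧
      c / 2 * (1 + δ / 2) ^ j ≤ N (bX k t) := by
    intro k j
    induction j with
    | zero =>
      intro _
      refine ⟨[], rfl, ?_⟩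
      rw [bX_nil, pow_zero, mul_one]
      exact hNe k []
    | succ j ih =>
      intro hj
      obtain ⟨t, ht, h1⟩ := ih (by omega)
      have h2 : 0 < N (bX k t) := lt_of_lt_of_le (by positivity) h1
      obtain ⟨n, hn⟩ := grow N hc hN hC hδ0 hδm k t h2 (hNb k t (by omega))
      refine ⟨t ++ [n], by rw [List.length_append, ht]; rfl, ?_⟩
      refine le_trans ?_ hn
      rw [pow_succ]
      have : (0 : ℝ) ≤ 1 + δ / 2 := by positivity
      nlinarith
  obtain ⟨k, hk⟩ := pow_unbounded_of_one_lt (2 * C / c) (by linarith : 1 < 1 + δ / 2)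
  obtain ⟨t, ht, h1⟩ := key k k le_rfl
  have h2 := hNb k t (by omega)
  rw [div_lt_iff₀ hc] at hk
  nlinarith

end

end Vale.Agent.P069
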