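import Vale.Agent.P069.Defs

/-! P069: reflexivity of Hilbert spaces, of isomorphic copies, and of `ℓ₂`-sums. -/

set_option linter.unusedSectionVars false

namespace Vale.Agent.P069

open Finset Filter Topology

noncomputable section

open Classical

/-- Hilbert spaces are reflexive -/
theorem hilbert_reflexive (H : Type*) [NormedAddCommGroup H] [InnerProductSpace ℝ H]
    [CompleteSpace H] : IsReflexiveSpace H := by
  intro φ
  let ψ : H →L[ℝ] ℝ := LinearMap.mkContinuous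
    { toFun := fun v => φ (InnerProductSpace.toDual ℝ H v)
      map_add' := fun v w => by rw [map_add, map_add]
      map_smul' := fun c v => by
        rw [map_smulₛₗ, map_smul]
        rfl } ‖φ‖
    (fun v => by
      refine (φ.le_opNorm _).trans (le_of_eq ?_)
      rw [LinearIsometryEquiv.norm_map])
  refine ⟨(InnerProductSpace.toDual ℝ H).symm ψ, ?_⟩
  ext f
  rw [NormedSpace.dual_def]
  obtain ⟨v, rfl⟩ := (InnerProductSpace.toDual ℝ H).surjective f
  rw [InnerProductSpace.toDual_apply_apply, real_inner_comm]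
  have h1 : (InnerProductSpace.toDual ℝ H ((InnerProductSpace.toDual ℝ H).symm ψ)) v = ψ v := by
    rw [LinearIsometryEquiv.apply_symm_apply]
  rw [InnerProductSpace.toDual_apply_apply] at h1
  rw [h1]
  rfl

/-- reflexivity is invariant under isomorphism -/
theorem reflexive_of_equiv {E F : Type*} [NormedAddCommGroup E] [NormedSpace ℝ E]
    [NormedAddCommGroup F] [NormedSpace ℝ F] (e : E ≃L[ℝ] F) (hF : IsReflexiveSpace F) :
    IsReflexiveSpace E := by
  intro φ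
  let T : (F →L[ℝ] ℝ) →L[ℝ] (E →L[ℝ] ℝ) :=
    (ContinuousLinearMap.compL ℝ E F ℝ).flip (e : E →L[ℝ] F)
  obtain ⟨y, hy⟩ := hF (φ.comp T)
  refine ⟨e.symm y, ?_⟩
  ext f
  rw [NormedSpace.dual_def]
  have h1 := congrArg (fun g => g (f.comp (e.symm : F →L[ℝ] E))) hy
  simp only [NormedSpace.dual_def] at h1
  have h2 : (φ.comp T) (f.comp (e.symm : F →L[ℝ] E)) = φ f := by
    change φ (T (f.comp (e.symm : F →L[ℝ] E))) = φ f
    congr 1
    ext x
    change f (e.symm (e x)) = f x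
    rw [ContinuousLinearEquiv.symm_apply_apply]
  rw [h2] at h1
  exact h1

section sum

variable {E : ℕ → Type*} [∀ i, NormedAddCommGroup (E i)] [∀ i, NormedSpace ℝ (E i)]

lemma two_pos' : 0 < (2 : ENNReal).toReal := by norm_num

/-- component map -/
def prE (i : ℕ) : lp E 2 →L[ℝ] E i :=
  LinearMap.mkContinuous
    { toFun := fun x => x i
      map_add' := fun x y => by rw [lp.coeFn_add]; rfl
      map_smul' := fun c x => by rw [lp.coeFn_smul]; rfl } 1
    (fun x => by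
      rw [one_mul]
      exact lp.norm_apply_le_norm (by norm_num) x i)

lemma prE_apply (i : ℕ) (x : lp E 2) : prE i x = x i := rfl

/-- inclusion map -/
def inE (i : ℕ) : E i →L[ℝ] lp E 2 := lp.singleContinuousLinearMap ℝ E 2 i

lemma inE_apply (i : ℕ) (x : E i) : inE i x = lp.single 2 i x := rfl

lemma lpsum_sq_le (x : lp E 2) (s : Finset ℕ) : ∑ i ∈ s, ‖x i‖ ^ 2 ≤ ‖x‖ ^ 2 := by
  have h1 := lp.sum_rpow_le_norm_rpow two_pos' x s
  simpa using h1

lemma norm_sum_inE_sq (z : ∀ i, E i) (s : Finset ℕ) :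
    ‖∑ i ∈ s, inE i (z i)‖ ^ 2 = ∑ i ∈ s, ‖z i‖ ^ 2 := by
  have h1 := lp.norm_sum_single two_pos' z s
  have h2 : ‖∑ i ∈ s, (lp.single 2 i (z i) : lp E 2)‖ ^ 2 = ∑ i ∈ s, ‖z i‖ ^ 2 := by
    simpa using h1
  exact h2

lemma cs (s : Finset ℕ) (a b : ℕ → ℝ) :
    ∑ i ∈ s, a i * b i ≤ Real.sqrt (∑ i ∈ s, a i ^ 2) * Real.sqrt (∑ i ∈ s, b i ^ 2) :=
  Real.sum_mul_le_sqrt_mul_sqrt s a b

/-- near-norming vectors -/
lemma exists_near {G : Type*} [NormedAddCommGroup G] [NormedSpace ℝ G] (f : G →L[ℝ] ℝ)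
    {δ : ℝ} (hδ : 0 < δ) : ∃ z : G, ‖z‖ ≤ 1 ∧ ‖f‖ - δ ≤ f z := by
  by_contra hcon
  push Not at hcon
  have h0 := hcon 0 (by simp)
  rw [map_zero] at h0
  -- h0 : 0 < ‖f‖ - δ
  have h1 : ‖f‖ ≤ ‖f‖ - δ := by
    refine f.opNorm_le_bound h0.le fun x => ?_
    by_cases hx : x = 0
    · rw [hx]; simp
    have hx' : 0 < ‖x‖ := norm_pos_iff.mpr hx
    have key : ∀ u : G, ‖u‖ ≤ 1 → |f u| ≤ ‖f‖ - δ := by
      intro u hu
      rw [abs_le]
      constructor
      · have := hcon (-u) (by rwa [norm_neg])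
        rw [map_neg] at this
        linarith
      · exact (hcon u hu).le
    have h2 := key (‖x‖⁻¹ • x) (by
      rw [norm_smul, norm_inv, norm_norm, inv_mul_cancel₀ hx'.ne'])
    rw [map_smul, smul_eq_mul, abs_mul, abs_of_pos (inv_pos.mpr hx')] at h2
    rw [Real.norm_eq_abs]
    have h3 := mul_le_mul_of_nonneg_left h2 hx'.le
    rw [← mul_assoc, mul_inv_cancel₀ hx'.ne', one_mul] at h3
    linarith
  linarith

/-- the norms of the components of a functional are square summable -/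
lemma comp_sq_le (F : lp E 2 →L[ℝ] ℝ) (s : Finset ℕ) :
    ∑ i ∈ s, ‖F.comp (inE i)‖ ^ 2 ≤ ‖F‖ ^ 2 := by
  set a : ℕ → ℝ := fun i => ‖F.comp (inE i)‖ with ha
  have ha0 : ∀ i, 0 ≤ a i := fun i => norm_nonneg _
  set A := ∑ i ∈ s, a i ^ 2 with hA
  have hA0 : 0 ≤ A := Finset.sum_nonneg fun i _ => sq_nonneg _
  have key : A ≤ ‖F‖ * Real.sqrt A := by
    apply le_of_forall_pos_le_add
    intro δ hδ
    have hδ' : 0 < δ / (∑ i ∈ s, a i + 1) := by
      have : 0 ≤ ∑ i ∈ s, a i := Finset.sum_nonneg fun i _ => ha0 i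
      positivity
    choose z hz1 hz2 using fun i => exists_near (F.comp (inE i)) hδ'
    have h1 : A - δ ≤ F (∑ i ∈ s, inE i (a i • z i)) := by
      rw [map_sum]
      have h2 : ∀ i ∈ s, a i * (a i - δ / (∑ i ∈ s, a i + 1)) ≤ F (inE i (a i • z i)) := by
        intro i _
        rw [map_smul, map_smul, smul_eq_mul]
        exact mul_le_mul_of_nonneg_left (hz2 i) (ha0 i)
      refine le_trans ?_ (Finset.sum_le_sum h2)
      have h3 : ∑ i ∈ s, a i * (a i - δ / (∑ i ∈ s, a i + 1)) =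
          A - (∑ i ∈ s, a i) * (δ / (∑ i ∈ s, a i + 1)) := by
        rw [hA, Finset.sum_mul, ← Finset.sum_sub_distrib]
        exact Finset.sum_congr rfl fun i _ => by ring
      rw [h3]
      have h4 : (∑ i ∈ s, a i) * (δ / (∑ i ∈ s, a i + 1)) ≤ δ := by
        have h5 : 0 ≤ ∑ i ∈ s, a i := Finset.sum_nonneg fun i _ => ha0 i
        rw [mul_div_assoc', div_le_iff₀ (by positivity)]
        nlinarith
      linarith
    have h2 : F (∑ i ∈ s, inE i (a i • z i)) ≤ ‖F‖ * Real.sqrt A := by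
      refine (le_abs_self _).trans ((F.le_opNorm _).trans ?_)
      refine mul_le_mul_of_nonneg_left ?_ (norm_nonneg F)
      apply Real.le_sqrt_of_sq_le
      rw [norm_sum_inE_sq]
      refine Finset.sum_le_sum fun i _ => ?_
      rw [norm_smul, mul_pow, Real.norm_eq_abs, sq_abs]
      have h3 : ‖z i‖ ^ 2 ≤ 1 := pow_le_one₀ (norm_nonneg _) (hz1 i)
      nlinarith [sq_nonneg (a i)]
    linarith
  have hs := Real.sq_sqrt hA0
  have hs0 := Real.sqrt_nonneg A
  have h1 : Real.sqrt A ≤ ‖F‖ := by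
    by_contra hcon
    push Not at hcon
    have h2 : 0 < Real.sqrt A := lt_of_le_of_lt (norm_nonneg F) hcon
    nlinarith
  calc A = Real.sqrt A ^ 2 := hs.symm
    _ ≤ ‖F‖ ^ 2 := pow_le_pow_left₀ hs0 h1 2

/-- truncation of a functional -/
def trF (F : lp E 2 →L[ℝ] ℝ) (s : Finset ℕ) : lp E 2 →L[ℝ] ℝ :=
  ∑ i ∈ s, (F.comp (inE i)).comp (prE i)

lemma trF_apply (F : lp E 2 →L[ℝ] ℝ) (s : Finset ℕ) (x : lp E 2) :
    trF F s x = F (∑ i ∈ s, inE i (x i)) := by
  rw [trF, map_sum, _root_.sum_apply]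
  rfl

/-- truncations converge in norm -/
lemma trF_near (F : lp E 2 →L[ℝ] ℝ) {δ : ℝ} (hδ : 0 < δ) :
    ∃ s : Finset ℕ, ‖F - trF F s‖ ≤ δ := by
  have h1 : Summable fun i => ‖F.comp (inE i)‖ ^ 2 :=
    summable_of_sum_le (fun i => sq_nonneg _) (comp_sq_le F)
  obtain ⟨s, hs⟩ := summable_iff_vanishing_norm.mp h1 (δ ^ 2) (by positivity)
  refine ⟨s, ContinuousLinearMap.opNorm_le_bound _ hδ.le fun x => ?_⟩
  -- convergence of partial sums
  have h2 : Tendsto (fun t : Finset ℕ => F (∑ i ∈ t, inE i (x i)) - F (∑ i ∈ s, inE i (x i)))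
      atTop (𝓝 (F x - F (∑ i ∈ s, inE i (x i)))) := by
    refine Tendsto.sub_const ?_ _
    exact (F.continuous.tendsto x).comp (lp.hasSum_single (by norm_num) x)
  rw [_root_.sub_apply, trF_apply]
  have h3 : ∀ᶠ t : Finset ℕ in atTop,
      ‖F (∑ i ∈ t, inE i (x i)) - F (∑ i ∈ s, inE i (x i))‖ ≤ δ * ‖x‖ := by
    filter_upwards [eventually_ge_atTop s] with t ht
    have e1 : F (∑ i ∈ t, inE i (x i)) - F (∑ i ∈ s, inE i (x i)) =
        ∑ i ∈ t \ s, (F.comp (inE i)) (x i) := by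
      rw [← Finset.sum_sdiff ht, map_add, add_sub_cancel_right, map_sum]
      rfl
    rw [e1]
    have e2 : ‖∑ i ∈ t \ s, (F.comp (inE i)) (x i)‖ ≤
        ∑ i ∈ t \ s, ‖F.comp (inE i)‖ * ‖x i‖ :=
      (norm_sum_le _ _).trans (Finset.sum_le_sum fun i _ => ContinuousLinearMap.le_opNorm _ _)
    refine e2.trans ((cs _ _ _).trans ?_)
    have e3 : Real.sqrt (∑ i ∈ t \ s, ‖F.comp (inE i)‖ ^ 2) ≤ δ := by
      have h5 := hs (t \ s) Finset.sdiff_disjoint
      rw [Real.norm_of_nonneg (Finset.sum_nonneg fun i _ => sq_nonneg _)] at h5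
      rw [Real.sqrt_le_left hδ.le]
      exact h5.le
    have e4 : Real.sqrt (∑ i ∈ t \ s, ‖x i‖ ^ 2) ≤ ‖x‖ := by
      rw [Real.sqrt_le_left (norm_nonneg _)]
      exact lpsum_sq_le x _
    exact mul_le_mul e3 e4 (Real.sqrt_nonneg _) hδ.le
  exact le_of_tendsto h2.norm h3

/-- **`ℓ₂`-sums of reflexive spaces are reflexive** -/
theorem lp_reflexive (hE : ∀ i, IsReflexiveSpace (E i)) : IsReflexiveSpace (lp E 2) := by
  intro φ
  -- components
  have hcomp : ∀ i, ∃ x : E i, ∀ f : E i →L[ℝ] ℝ, f x = φ (f.comp (prE i)) := by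
    intro i
    let T : (E i →L[ℝ] ℝ) →L[ℝ] (lp E 2 →L[ℝ] ℝ) :=
      (ContinuousLinearMap.compL ℝ (lp E 2) (E i) ℝ).flip (prE i)
    obtain ⟨x, hx⟩ := hE i (φ.comp T)
    refine ⟨x, fun f => ?_⟩
    have h1 := congrArg (fun g => g f) hx
    simp only [NormedSpace.dual_def] at h1
    rw [h1]
    rfl
  choose x hx using hcomp
  -- square summability
  have hsq : ∀ s : Finset ℕ, ∑ i ∈ s, ‖x i‖ ^ 2 ≤ ‖φ‖ ^ 2 := by
    intro s
    have hdual : ∀ i, ∃ g : E i →L[ℝ] ℝ, ‖g‖ ≤ 1 ∧ g (x i) = ‖x i‖ := by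
      intro i
      obtain ⟨g, hg1, hg2⟩ := exists_dual_vector'' ℝ (x i)
      exact ⟨g, hg1, by simpa using hg2⟩
    choose g hg1 hg2 using hdual
    set A := ∑ i ∈ s, ‖x i‖ ^ 2 with hA
    have hA0 : 0 ≤ A := Finset.sum_nonneg fun i _ => sq_nonneg _
    set F : lp E 2 →L[ℝ] ℝ := ∑ i ∈ s, (‖x i‖ • g i).comp (prE i) with hF
    have h1 : φ F = A := by
      rw [hF, map_sum, hA]
      refine Finset.sum_congr rfl fun i _ => ?_
      rw [← hx i, _root_.smul_apply, hg2, smul_eq_mul, pow_two]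
    have h2 : ‖F‖ ≤ Real.sqrt A := by
      refine ContinuousLinearMap.opNorm_le_bound _ (Real.sqrt_nonneg _) fun z => ?_
      rw [hF, _root_.sum_apply]
      refine (norm_sum_le _ _).trans ?_
      have h3 : ∀ i ∈ s, ‖((‖x i‖ • g i).comp (prE i)) z‖ ≤ ‖x i‖ * ‖z i‖ := by
        intro i _
        rw [ContinuousLinearMap.comp_apply, _root_.smul_apply, prE_apply, norm_smul,
          norm_norm]
        refine mul_le_mul_of_nonneg_left ?_ (norm_nonneg _)
        refine ((g i).le_opNorm _).trans ?_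
        have := mul_le_mul_of_nonneg_right (hg1 i) (norm_nonneg (z i))
        rwa [one_mul] at this
      refine (Finset.sum_le_sum h3).trans ((cs _ _ _).trans ?_)
      refine mul_le_mul_of_nonneg_left ?_ (Real.sqrt_nonneg _)
      rw [Real.sqrt_le_left (norm_nonneg _)]
      exact lpsum_sq_le z s
    have h4 : A ≤ ‖φ‖ * Real.sqrt A := by
      have h5 := (le_abs_self (φ F)).trans (φ.le_opNorm F)
      rw [h1] at h5
      exact h5.trans (mul_le_mul_of_nonneg_left h2 (norm_nonneg φ))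
    have hs := Real.sq_sqrt hA0
    have hs0 := Real.sqrt_nonneg A
    have h6 : Real.sqrt A ≤ ‖φ‖ := by
      by_contra hcon
      push Not at hcon
      have h2 : 0 < Real.sqrt A := lt_of_le_of_lt (norm_nonneg φ) hcon
      nlinarith
    calc A = Real.sqrt A ^ 2 := hs.symm
      _ ≤ ‖φ‖ ^ 2 := pow_le_pow_left₀ hs0 h6 2
  have hmem : Memℓp x 2 := by
    refine memℓp_gen' (C := ‖φ‖ ^ 2) fun s => ?_
    have := hsq s
    simpa using this
  let X : lp E 2 := ⟨x, hmem⟩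
  refine ⟨X, ?_⟩
  ext F
  rw [NormedSpace.dual_def]
  -- compare on truncations
  have htr : ∀ s : Finset ℕ, φ (trF F s) = (trF F s) X := by
    intro s
    rw [trF, map_sum, _root_.sum_apply]
    refine Finset.sum_congr rfl fun i _ => ?_
    rw [← hx i]
    rfl
  by_contra hne
  have hpos : 0 < |φ F - F X| := abs_pos.mpr (sub_ne_zero.mpr (Ne.symm hne))
  obtain ⟨s, hs⟩ := trF_near F (δ := |φ F - F X| / (2 * (‖φ‖ + ‖X‖ + 1))) (by positivity)
  have h1 : |φ F - φ (trF F s)| ≤ ‖φ‖ * (|φ F - F X| / (2 * (‖φ‖ + ‖X‖ + 1))) := by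
    rw [← map_sub]
    exact (φ.le_opNorm _).trans (mul_le_mul_of_nonneg_left hs (norm_nonneg φ))
  have h2 : |F X - (trF F s) X| ≤ (|φ F - F X| / (2 * (‖φ‖ + ‖X‖ + 1))) * ‖X‖ := by
    rw [← _root_.sub_apply]
    exact ((F - trF F s).le_opNorm X).trans (mul_le_mul_of_nonneg_right hs (norm_nonneg X))
  have h3 : |φ F - F X| ≤ |φ F - φ (trF F s)| + |F X - (trF F s) X| := by
    rw [htr s]
    have e1 : φ F - F X = (φ F - (trF F s) X) - (F X - (trF F s) X) := by ring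
    nth_rewrite 1 [e1]
    exact abs_sub _ _
  have h4 : ‖φ‖ * (|φ F - F X| / (2 * (‖φ‖ + ‖X‖ + 1))) +
      (|φ F - F X| / (2 * (‖φ‖ + ‖X‖ + 1))) * ‖X‖ ≤ |φ F - F X| / 2 := by
    have e1 : ‖φ‖ * (|φ F - F X| / (2 * (‖φ‖ + ‖X‖ + 1))) +
      (|φ F - F X| / (2 * (‖φ‖ + ‖X‖ + 1))) * ‖X‖ =
      (|φ F - F X| / 2) * ((‖φ‖ + ‖X‖) / (‖φ‖ + ‖X‖ + 1)) := by
      field_simp
    rw [e1]
    have e2 : (‖φ‖ + ‖X‖) / (‖φ‖ + ‖X‖ + 1) ≤ 1 := by
      rw [div_le_one (by positivity)]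
      linarith
    have e3 : 0 ≤ |φ F - F X| / 2 := by positivity
    nlinarith
  linarith

end sum

end

end Vale.Agent.P069
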