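import Vale.Agent.P069.Mid
import Vale.Agent.P069.Defs

/-! P069: the spaces `EE k` and their `ℓ₂`-sum. -/

namespace Vale.Agent.P069

open Finset

noncomputable section

open Classical

/-- `ℓ₂` of the tree with the norm `K k` -/
def EE (_ : ℕ) : Type := HH

instance (k : ℕ) : AddCommGroup (EE k) := inferInstanceAs (AddCommGroup HH)
instance (k : ℕ) : Module ℝ (EE k) := inferInstanceAs (Module ℝ HH)

/-- the identity `EE k → HH` -/
def toH (k : ℕ) : EE k ≃ₗ[ℝ] HH := LinearEquiv.refl ℝ HH

lemma K_eq_zero {k : ℕ} {x : HH} (h : K k x = 0) : x = 0 := by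
  have h1 := norm_le_K k x
  rw [h, mul_zero] at h1
  exact norm_le_zero_iff.mp h1

/-- the group norm on `EE k` -/
def EEnorm (k : ℕ) : AddGroupNorm (EE k) where
  toFun x := K k (toH k x)
  map_zero' := by rw [map_zero]; exact K_zero k
  add_le' x y := by rw [map_add]; exact K_add_le k _ _
  neg' x := by
    have := K_smul k (-1) (toH k x)
    rw [map_neg]
    simpa using this
  eq_zero_of_map_eq_zero' x h := by
    have := K_eq_zero h
    exact (LinearEquiv.map_eq_zero_iff _).mp this

instance (k : ℕ) : NormedAddCommGroup (EE k) := (EEnorm k).toNormedAddCommGroup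

lemma EE_norm {k : ℕ} (x : EE k) : ‖x‖ = K k (toH k x) := rfl

instance (k : ℕ) : NormedSpace ℝ (EE k) where
  norm_smul_le c x := by
    rw [EE_norm, EE_norm, map_smul, K_smul, Real.norm_eq_abs]

/-- the identity as a continuous linear equivalence -/
def toHL (k : ℕ) : EE k ≃L[ℝ] HH :=
  (toH k).toContinuousLinearEquivOfBounds (Real.sqrt (k + 1) + 1) 1
    (fun x => by rw [EE_norm]; exact norm_le_K k _)
    (fun x => by
      rw [EE_norm, one_mul, LinearEquiv.apply_symm_apply]; exact K_le_norm k x)

lemma toHL_apply {k : ℕ} (x : EE k) : toHL k x = toH k x := rfl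

instance (k : ℕ) : CompleteSpace (EE k) :=
  (completeSpace_congr (e := (toHL k).toEquiv) (toHL k).isUniformEmbedding).mpr inferInstance

/-- the space -/
abbrev XX : Type := lp (fun k : ℕ => EE k) 2

lemma XX_normsq (x : XX) : ‖x‖ ^ 2 = ∑' k, ‖x k‖ ^ 2 := by
  have h1 := lp.norm_rpow_eq_tsum two_toReal_pos x
  simpa using h1

lemma XX_summable (x : XX) : Summable fun k => ‖x k‖ ^ 2 := by
  have h1 := (lp.memℓp x).summable two_toReal_pos
  simpa using h1

/-- the `k`-th component -/
def prj (k : ℕ) : XX →L[ℝ] EE k :=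
  LinearMap.mkContinuous
    { toFun := fun x => x k
      map_add' := fun x y => by rw [lp.coeFn_add]; rfl
      map_smul' := fun c x => by rw [lp.coeFn_smul]; rfl } 1
    (fun x => by
      rw [one_mul]
      exact lp.norm_apply_le_norm (by norm_num) x k)

lemma prj_apply (k : ℕ) (x : XX) : prj k x = x k := rfl

/-- coordinates of `HH` -/
def crdH (t : List ℕ) : HH →L[ℝ] ℝ :=
  LinearMap.mkContinuous
    { toFun := fun x => x t
      map_add' := fun x y => by rw [lp.coeFn_add]; rfl
      map_smul' := fun c x => by rw [lp.coeFn_smul]; rfl } 1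
    (fun x => by
      rw [one_mul]
      exact lp.norm_apply_le_norm (by norm_num) x t)

lemma crdH_apply (t : List ℕ) (x : HH) : crdH t x = x t := rfl

/-- coordinates of `XX` -/
def crd (k : ℕ) (t : List ℕ) : XX →L[ℝ] ℝ :=
  (crdH t).comp (((toHL k : EE k →L[ℝ] HH)).comp (prj k))

lemma crd_apply (k : ℕ) (t : List ℕ) (x : XX) : crd k t x = toH k (x k) t := rfl

end

end Vale.Agent.P069
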