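import Mathlib

/-! P069: a stopping-time lemma on the tree of finite sequences. -/

namespace Vale.Agent.P069

open Finset

noncomputable section

open Classical

/-- longest initial segment of `t` which belongs to `A` -/
def qA (A : Finset (List ℕ)) (t : List ℕ) : List ℕ :=
  t.take (Nat.findGreatest (fun i => t.take i ∈ A) t.length)

variable {A : Finset (List ℕ)}

lemma qA_prefix (t : List ℕ) : qA A t <+: t := List.take_prefix _ _

lemma qA_mem (h0 : [] ∈ A) (t : List ℕ) : qA A t ∈ A := by
  have := Nat.findGreatest_spec (P := fun i => t.take i ∈ A) (m := 0) (n := t.length)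
    (Nat.zero_le _) (by simpa using h0)
  exact this

lemma qA_max {s t : List ℕ} (hs : s ∈ A) (hst : s <+: t) : s <+: qA A t := by
  have h1 : s = t.take s.length := List.prefix_iff_eq_take.mp hst
  have h2 : s.length ≤ Nat.findGreatest (fun i => t.take i ∈ A) t.length := by
    apply Nat.le_findGreatest hst.length_le
    rw [← h1]; exact hs
  rw [qA]
  rw [h1]
  exact List.take_prefix_take_left h2

lemma qA_eq (h0 : [] ∈ A) (hAd : ∀ s t : List ℕ, s <+: t → t ∈ A → s ∈ A) {r t : List ℕ}
    (hr : r ∉ A) (hrt : r <+: t) : qA A t = qA A r := by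
  have h1 : qA A t <+: r := by
    rcases List.prefix_or_prefix_of_prefix (qA_prefix (A := A) t) hrt with h | h
    · exact h
    · exact absurd (hAd _ _ h (qA_mem h0 t)) hr
  have h2 : qA A t <+: qA A r := qA_max (qA_mem h0 t) h1
  have h3 : qA A r <+: qA A t := qA_max (qA_mem h0 r) ((qA_prefix r).trans hrt)
  exact h2.eq_of_length_le h3.length_le

/-- sum of `f` over the part of `S` above `r` -/
def up (S : Finset (List ℕ)) (f : List ℕ → ℝ) (r : List ℕ) : ℝ :=
  ∑ t ∈ S, if r <+: t then f t else 0

/-- `t` has an initial segment in the set `g` -/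
def hasGood (g : List ℕ → Prop) (t : List ℕ) : Prop := ∃ r, r <+: t ∧ g r

lemma cover (S : Finset (List ℕ)) (hAd : ∀ s t : List ℕ, s <+: t → t ∈ A → s ∈ A)
    (p m : List ℕ → ℝ) (hp : ∀ t, 0 ≤ p t) (hm : ∀ t, 0 ≤ m t) (g : List ℕ → Prop)
    (hg : ∀ r, g r → r ∉ A ∧ up S p r ≤ 2 * up S m r) :
    ∑ t ∈ S, (if hasGood g t then p t else 0) ≤ 2 * ∑ t ∈ S, if t ∈ A then 0 else m t := by
  -- shortest good initial segment
  have hex : ∀ t, hasGood g t → ∃ i, g (t.take i) := by
    rintro t ⟨r, hrt, hr⟩
    refine ⟨r.length, ?_⟩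
    rw [← List.prefix_iff_eq_take.mp hrt]
    exact hr
  let ρ : List ℕ → List ℕ := fun t =>
    if h : hasGood g t then t.take (Nat.find (hex t h)) else []
  have hρ1 : ∀ t, hasGood g t → g (ρ t) := by
    intro t h
    simp only [ρ, dif_pos h]
    exact Nat.find_spec (hex t h)
  have hρ2 : ∀ t, hasGood g t → ρ t <+: t := by
    intro t h
    simp only [ρ, dif_pos h]
    exact List.take_prefix _ _
  have hρ3 : ∀ t r, hasGood g t → g r → r <+: t → ρ t <+: r := by
    intro t r h hr hrt
    simp only [ρ, dif_pos h]
    have h1 : r = t.take r.length := List.prefix_iff_eq_take.mp hrt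
    have h2 : Nat.find (hex t h) ≤ r.length := Nat.find_min' (hex t h) (by rw [← h1]; exact hr)
    rw [h1]
    exact List.take_prefix_take_left h2
  let R : Finset (List ℕ) := (S.filter (hasGood g)).image ρ
  have hR : ∀ r ∈ R, g r := by
    intro r hr
    rw [Finset.mem_image] at hr
    obtain ⟨t, ht, rfl⟩ := hr
    exact hρ1 t (Finset.mem_filter.mp ht).2
  have huniq : ∀ t, ∀ r₁ ∈ R, ∀ r₂ ∈ R, r₁ <+: t → r₂ <+: t → r₁ <+: r₂ := by
    intro t r₁ h1 r₂ h2 h1t h2t
    rcases List.prefix_or_prefix_of_prefix h1t h2t with h | h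
    · exact h
    · rw [Finset.mem_image] at h1
      obtain ⟨t₁, ht₁, rfl⟩ := h1
      have h3 := (Finset.mem_filter.mp ht₁).2
      exact hρ3 t₁ r₂ h3 (hR r₂ h2) (h.trans (hρ2 t₁ h3))
  have hcard : ∀ t, (R.filter (fun r => r <+: t)).card ≤ 1 := by
    intro t
    rw [Finset.card_le_one]
    intro r₁ h1 r₂ h2
    rw [Finset.mem_filter] at h1 h2
    have a1 := huniq t r₁ h1.1 r₂ h2.1 h1.2 h2.2
    have a2 := huniq t r₂ h2.1 r₁ h1.1 h2.2 h1.2
    exact a1.eq_of_length_le a2.length_le
  have hswap : ∀ f : List ℕ → ℝ, ∑ r ∈ R, up S f r =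
      ∑ t ∈ S, ((R.filter (fun r => r <+: t)).card : ℝ) * f t := by
    intro f
    simp only [up]
    rw [Finset.sum_comm]
    refine Finset.sum_congr rfl fun t _ => ?_
    rw [← Finset.sum_filter, Finset.sum_const, nsmul_eq_mul]
  calc ∑ t ∈ S, (if hasGood g t then p t else 0)
      ≤ ∑ t ∈ S, ((R.filter (fun r => r <+: t)).card : ℝ) * p t := by
        refine Finset.sum_le_sum fun t ht => ?_
        split_ifs with h
        · have h1 : (1 : ℝ) ≤ ((R.filter (fun r => r <+: t)).card : ℝ) := by
            have : 0 < (R.filter (fun r => r <+: t)).card := by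
              rw [Finset.card_pos]
              refine ⟨ρ t, ?_⟩
              rw [Finset.mem_filter]
              exact ⟨Finset.mem_image_of_mem _ (Finset.mem_filter.mpr ⟨ht, h⟩), hρ2 t h⟩
            exact_mod_cast this
          nlinarith [hp t]
        · exact mul_nonneg (Nat.cast_nonneg _) (hp t)
    _ = ∑ r ∈ R, up S p r := (hswap p).symm
    _ ≤ ∑ r ∈ R, 2 * up S m r := Finset.sum_le_sum fun r hr => (hg r (hR r hr)).2
    _ = 2 * ∑ t ∈ S, ((R.filter (fun r => r <+: t)).card : ℝ) * m t := by
        rw [← Finset.mul_sum, hswap m]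
    _ ≤ 2 * ∑ t ∈ S, if t ∈ A then 0 else m t := by
        refine mul_le_mul_of_nonneg_left (Finset.sum_le_sum fun t _ => ?_) (by norm_num)
        split_ifs with h
        · have : R.filter (fun r => r <+: t) = ∅ := by
            rw [Finset.filter_eq_empty_iff]
            intro r hr hrt
            exact (hg r (hR r hr)).1 (hAd r t hrt h)
          rw [this]
          simp
        · have h1 : ((R.filter (fun r => r <+: t)).card : ℝ) ≤ 1 := by exact_mod_cast hcard t
          nlinarith [hm t]

lemma clamp_bound {e p : ℝ} (hp : 0 ≤ p) :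
    |max (-p) (min p e)| ≤ p ∧ |e - max (-p) (min p e)| ≤ max (|e| - p) 0 := by
  rcases le_total p e with h | h
  · rw [min_eq_left h, max_eq_right (by linarith)]
    constructor
    · rw [abs_of_nonneg hp]
    · rw [abs_of_nonneg (by linarith), abs_of_nonneg (by linarith)]
      exact le_max_left _ _
  · rw [min_eq_right h]
    rcases le_total (-p) e with h' | h'
    · rw [max_eq_right h']
      constructor
      · rw [abs_le]; exact ⟨h', h⟩
      · rw [sub_self, abs_zero]; exact le_max_right _ _
    · rw [max_eq_left h']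
      constructor
      · rw [abs_neg, abs_of_nonneg hp]
      · rw [abs_of_nonpos (by linarith), abs_of_nonpos (by linarith)]
        refine le_trans (le_of_eq ?_) (le_max_left _ _)
        ring

/-- **The splitting lemma.** -/
theorem split (h0 : [] ∈ A) (hAd : ∀ s t : List ℕ, s <+: t → t ∈ A → s ∈ A)
    (S : Finset (List ℕ)) (α η ε : List ℕ → ℝ) (hα : ∀ t, t ∉ S → α t = 0)
    (hη : ∀ t, t ∉ S → η t = 0) (hε : ∀ t, ε t = 1 ∨ ε t = -1) :
    ∃ ζ ξ : List ℕ → ℝ, (∀ t, t ∉ S → ζ t = 0) ∧ (∀ t, t ∉ S → ξ t = 0) ∧
      (∀ t, t ∉ A → η t = ζ t + ξ t) ∧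
      (∑ t ∈ S, |ζ t| ≤ 3 / 2 * ∑ t ∈ S, (max |α t| |η t| - ε (qA A t) * α t)) ∧
      (∀ r, r ∉ A → |up S ξ r| ≤ 2 * |up S α r|) := by
  let p : List ℕ → ℝ := fun t => max (ε (qA A t) * α t) 0
  let m : List ℕ → ℝ := fun t => max (-(ε (qA A t) * α t)) 0
  have hp : ∀ t, 0 ≤ p t := fun t => le_max_right _ _
  have hm : ∀ t, 0 ≤ m t := fun t => le_max_right _ _
  have hpm : ∀ t, p t - m t = ε (qA A t) * α t := by
    intro t
    simp only [p, m]
    rcases le_total 0 (ε (qA A t) * α t) with h | h
    · rw [max_eq_left h, max_eq_right (by linarith)]; ring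
    · rw [max_eq_right h, max_eq_left (by linarith)]; ring
  have habs : ∀ t, p t + m t = |α t| := by
    intro t
    have h1 : |ε (qA A t) * α t| = |α t| := by
      rcases hε (qA A t) with h | h <;> rw [h] <;> simp
    rw [← h1]
    simp only [p, m]
    rcases le_total 0 (ε (qA A t) * α t) with h | h
    · rw [max_eq_left h, max_eq_right (by linarith), abs_of_nonneg h]; ring
    · rw [max_eq_right h, max_eq_left (by linarith), abs_of_nonpos h]; ring
  let g : List ℕ → Prop := fun r => r ∉ A ∧ up S p r ≤ 2 * up S m r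
  let ξ : List ℕ → ℝ := fun t =>
    if t ∈ A ∨ hasGood g t then 0 else max (-p t) (min (p t) (η t))
  let ζ : List ℕ → ℝ := fun t => if t ∈ A then 0 else η t - ξ t
  have hcov := cover S hAd p m hp hm g (fun r hr => hr)
  have hp0 : ∀ t, t ∉ S → p t = 0 := by
    intro t ht
    simp only [p, hα t ht, mul_zero, max_self]
  have hξ0 : ∀ t, t ∉ S → ξ t = 0 := by
    intro t ht
    simp only [ξ, hp0 t ht, hη t ht]
    split_ifs <;> simp
  have hξp : ∀ t, |ξ t| ≤ p t := by
    intro t
    simp only [ξ]
    split_ifs with h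
    · rw [abs_zero]; exact hp t
    · exact (clamp_bound (hp t)).1
  refine ⟨ζ, ξ, ?_, hξ0, ?_, ?_, ?_⟩
  · intro t ht
    simp only [ζ, hξ0 t ht, hη t ht]
    split_ifs <;> simp
  · intro t ht
    simp only [ζ, if_neg ht]
    ring
  · -- mass of zeta
    have h1 : ∀ t ∈ S, |ζ t| ≤ (if t ∈ A then 0 else (max (|η t| - |α t|) 0 + m t)) +
        (if hasGood g t then p t else 0) := by
      intro t _
      simp only [ζ, ξ]
      by_cases ht : t ∈ A
      · rw [if_pos ht, if_pos ht, abs_zero]
        split_ifs
        · linarith [hp t]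
        · linarith
      · rw [if_neg ht, if_neg ht]
        by_cases hg : hasGood g t
        · rw [if_pos (Or.inr hg), if_pos hg, sub_zero]
          have h2 := le_max_left (|η t| - |α t|) 0
          have h3 := habs t
          linarith
        · rw [if_neg (by tauto), if_neg hg, add_zero]
          refine (clamp_bound (hp t)).2.trans ?_
          have h3 := habs t
          refine max_le ?_ (add_nonneg (le_max_right _ _) (hm t))
          have h2 := le_max_left (|η t| - |α t|) 0
          linarith
    have h2 := Finset.sum_le_sum h1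
    rw [Finset.sum_add_distrib] at h2
    have h3 : ∑ t ∈ S, (if t ∈ A then 0 else (max (|η t| - |α t|) 0 + m t)) +
        2 * ∑ t ∈ S, (if t ∈ A then 0 else m t) ≤
        3 / 2 * ∑ t ∈ S, (max |α t| |η t| - ε (qA A t) * α t) := by
      rw [Finset.mul_sum, Finset.mul_sum, ← Finset.sum_add_distrib]
      refine Finset.sum_le_sum fun t _ => ?_
      have h4 : max |α t| |η t| - ε (qA A t) * α t =
          max (|η t| - |α t|) 0 + 2 * m t := by
        have e1 := hpm t
        have e2 := habs t
        have e3 : max |α t| |η t| = max (|η t| - |α t|) 0 + |α t| := by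
          rcases le_total |η t| |α t| with h | h
          · rw [max_eq_left h, max_eq_right (by linarith)]; ring
          · rw [max_eq_right h, max_eq_left (by linarith)]; ring
        linarith
      rw [h4]
      have h5 := le_max_right (|η t| - |α t|) 0
      have h6 := hm t
      split_ifs
      · linarith
      · linarith
    linarith
  · -- pointwise comparison
    intro r hr
    have hq : ∀ t ∈ S, (if r <+: t then ε (qA A t) * α t else 0) =
        ε (qA A r) * (if r <+: t then α t else 0) := by
      intro t _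
      split_ifs with h
      · rw [qA_eq h0 hAd hr h]
      · ring
    have h1 : up S p r - up S m r = ε (qA A r) * up S α r := by
      simp only [up]
      rw [← Finset.sum_sub_distrib, Finset.mul_sum]
      refine Finset.sum_congr rfl fun t ht => ?_
      rw [← hq t ht]
      split_ifs with h
      · exact hpm t
      · ring
    have h2 : |up S p r - up S m r| = |up S α r| := by
      rw [h1, abs_mul]
      rcases hε (qA A r) with h | h <;> rw [h] <;> simp
    by_cases hgr : hasGood g r
    · have h3 : up S ξ r = 0 := by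
        simp only [up]
        refine Finset.sum_eq_zero fun t _ => ?_
        split_ifs with h
        · obtain ⟨r', hr', hg'⟩ := hgr
          have : hasGood g t := ⟨r', hr'.trans h, hg'⟩
          simp only [ξ, if_pos (Or.inr this)]
        · rfl
      rw [h3, abs_zero]
      exact mul_nonneg (by norm_num) (abs_nonneg _)
    · have h3 : ¬ g r := fun h => hgr ⟨r, List.prefix_rfl, h⟩
      have h4 : 2 * up S m r < up S p r := by
        by_contra hcon
        exact h3 ⟨hr, not_lt.mp hcon⟩
      have h5 : |up S ξ r| ≤ up S p r := by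
        simp only [up]
        refine (Finset.abs_sum_le_sum_abs _ _).trans (Finset.sum_le_sum fun t _ => ?_)
        split_ifs
        · exact hξp t
        · rw [abs_zero]
      have h6 := le_abs_self (up S p r - up S m r)
      rw [h2] at h6
      linarith

end

end Vale.Agent.P069
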